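import Vale.Agent.P207.N3.H147.Axis
import Vale.Agent.P207.N3.H732.LeafA

/-!
# P207, N3: the closed orbits are dense

* `exists_pair`: `k β^m` has an axis with end points near `β⁻` and `k β⁺`;
* `dense_pairs`: the pairs of end points of axes are dense in `B × B`;
* `dense_axes`: the frames on axes are dense.
-/

open Set Filter Topology Metric MeasureTheory
open scoped ContDiff

noncomputable section

namespace Vale.Agent.P207.N3.H728

open H147 (ep_cont ep_smul ep_φ ep_rot φ_sub_cancel φ_sub_cancel')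

variable {Γ X B : Type} [Group Γ] [MetricSpace X] [ProperSpace X] [MulAction Γ X]
  [IsIsometricSMul Γ X] [TopologicalSpace B] [CompactSpace B] [T2Space B] [MulAction Γ B]
  [ContinuousConstSMul Γ B] (L : Leaf Γ X B)

/-- every boundary point is the end point of a frame -/
theorem exists_ep (ζ : B) : ∃ x, L.ep x = ζ := by
  obtain ⟨w⟩ := L.nonempty
  by_cases h : L.em w = ζ
  · exact ⟨L.flip w, by rw [L.ep_flip, L.flip_flip, h]⟩
  · obtain ⟨x, -, hx, -⟩ := L.exists_frame (L.em w) ζ h 0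
    exact ⟨x, hx⟩

include L in
/-- the boundary has no isolated point -/
theorem exists_ne_mem {ζ : B} {V : Set B} (hV : V ∈ 𝓝 ζ) : ∃ η ∈ V, η ≠ ζ := by
  obtain ⟨x, rfl⟩ := exists_ep L ζ
  have h3 : ContinuousWithinAt (L.e x) (closedBall 0 3) 0 := by
    have h2 : ContinuousOn (fun u : E2 => ((x, u) : X × E2)) (closedBall 0 3) :=
      (Continuous.prodMk_right x).continuousOn
    exact (L.e_cont.comp h2 fun u hu => ⟨mem_univ _, hu⟩) 0 (by simp)
  have h4 : L.e x ⁻¹' V ∈ 𝓝[closedBall 0 3] (0 : E2) :=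
    h3 (by rw [L.e_zero]; exact hV)
  have h5 : L.e x ⁻¹' V ∈ 𝓝 (0 : E2) :=
    mem_of_superset (inter_mem (mem_nhdsWithin_iff_exists_mem_nhds_inter.1 h4).choose_spec.1
      (closedBall_mem_nhds (0 : E2) (by norm_num : (0 : ℝ) < 3)))
      (mem_nhdsWithin_iff_exists_mem_nhds_inter.1 h4).choose_spec.2
  obtain ⟨r, hr, hb⟩ := Metric.mem_nhds_iff.1 h5
  obtain ⟨u, hu⟩ := exists_norm_eq E2 (show 0 ≤ min (r / 2) 3 by positivity)
  have hu0 : u ≠ 0 := by
    rw [← norm_pos_iff, hu]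
    positivity
  refine ⟨L.e x u, hb ?_, fun h => hu0 ?_⟩
  · rw [mem_ball_zero_iff, hu]
    exact lt_of_le_of_lt (min_le_left _ _) (by linarith)
  · refine L.e_inj x ?_ (by simp) (by rw [h, L.e_zero])
    rw [mem_closedBall_zero_iff, hu]
    exact min_le_right _ _

include L in
/-- the group is not trivial -/
theorem exists_ne_one : ∃ β : Γ, β ≠ 1 := by
  by_contra hcon
  push Not at hcon
  obtain ⟨w⟩ := L.nonempty
  have h1 := L.dense_orbit (L.em w)
  have h2 : range (fun g : Γ => g • L.em w) = {L.em w} := by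
    ext z
    simp only [mem_range, mem_singleton_iff]
    constructor
    · rintro ⟨g, rfl⟩
      rw [hcon g, one_smul]
    · rintro rfl
      exact ⟨1, one_smul _ _⟩
  rw [h2, dense_iff_closure_eq, closure_singleton] at h1
  have h3 : L.ep w ∈ ({L.em w} : Set B) := by
    rw [h1]
    exact mem_univ _
  exact L.em_ne_ep w h3.symm

/-- there is an axis -/
theorem exists_axis' : ∃ (β : Γ) (x : X) (l : ℝ) (a : O2), L.IsAxis β x l a := by
  obtain ⟨β, hβ⟩ := exists_ne_one L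
  obtain ⟨x, l, a, h1, h2⟩ := L.exists_axis β hβ
  exact ⟨β, x, l, a, h1, h2⟩

variable {L} {β : Γ} {x : X} {l : ℝ} {a : O2}

/-- an element which maps a closed neighbourhood of a point different from both ... -/
theorem ep_mem (h : L.IsAxis β x l a) {V : Set B} (hV : IsClosed V) (hm : ∀ η ∈ V, β • η ∈ V)
    {η : B} (hη : η ∈ V) (hne : η ≠ L.em x) : L.ep x ∈ V := by
  have h1 : ∀ n : ℕ, β ^ n • η ∈ V := by
    intro n
    induction n with
    | zero => simpa using hη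
    | succ n ih => rw [pow_succ', mul_smul]; exact hm _ ih
  by_contra hcon
  have h2 := (H147.Ax.north h (K := {η}) isCompact_singleton (fun h' => hne h'.symm)
    (hV.isOpen_compl.mem_nhds hcon)).exists
  obtain ⟨m, hm'⟩ := h2
  exact hm' η rfl (h1 m)

/-- the fixed points of an element with an axis -/
theorem fixed_ends (h : L.IsAxis β x l a) {η : B} (hη : β • η = η) :
    η = L.em x ∨ η = L.ep x := by
  by_contra hcon
  push Not at hcon
  have h1 := ep_mem h (isClosed_singleton (x := η)) (by rintro _ rfl; exact hη) rfl hcon.1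
  exact hcon.2 h1.symm

/-- a conjugate -/
theorem conj_axis (h : L.IsAxis β x l a) (g : Γ) : L.IsAxis (g * β * g⁻¹) (g • x) l a := by
  refine ⟨h.pos, ?_⟩
  rw [smul_smul, inv_mul_cancel_right, mul_smul, h.eq, L.rot_smul, L.φ_smul]

/-- change of the frame along the axis -/
theorem φ_axis (h : L.IsAxis β x l a) (t : ℝ) : L.IsAxis β (L.φ t x) l a := by
  refine ⟨h.pos, ?_⟩
  rw [← L.φ_smul, h.eq, L.rot_φ, ← L.φ_add, ← L.φ_add, add_comm]

/-- rotation of the frame on the axis -/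
theorem rot_axis (h : L.IsAxis β x l a) (b : O2) :
    L.IsAxis β (L.rot b x) l (b⁻¹ * a * b) := by
  refine ⟨h.pos, ?_⟩
  rw [← L.rot_smul, h.eq, L.rot_φ, ← L.rot_mul, ← L.rot_mul]
  congr 2
  group

/-- `k β^m` is not trivial for large `m` -/
theorem ev_ne_one (h : L.IsAxis β x l a) (k : Γ) : ∀ᶠ m : ℕ in atTop, k * β ^ m ≠ 1 := by
  have h1 : Tendsto (fun m : ℕ => (m : ℝ) * l) atTop atTop :=
    tendsto_natCast_atTop_atTop.atTop_mul_const h.pos
  filter_upwards [h1.eventually_gt_atTop (L.lv (k⁻¹ • x) - L.lv x)] with m hm h2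
  have h3 : β ^ m = k⁻¹ := (inv_eq_of_mul_eq_one_right h2).symm
  have h4 := H147.Ax.lv_pow_smul h (y := x) rfl m
  rw [h3] at h4
  linarith

/-- **the axis of `k β^m`**: its end points are near `β⁻` and `k β⁺` -/
theorem exists_pair (h : L.IsAxis β x l a) (k : Γ) (hk : k • L.ep x ≠ L.em x) {U V : Set B}
    (hU : U ∈ 𝓝 (L.em x)) (hV : V ∈ 𝓝 (k • L.ep x)) : ∀ᶠ m : ℕ in atTop,
    ∃ (y : X) (l' : ℝ) (a' : O2), L.IsAxis (k * β ^ m) y l' a' ∧ L.em y ∈ U ∧ L.ep y ∈ V := by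
  obtain ⟨V', hV'n, hV'c, hV'⟩ := exists_mem_nhds_isClosed_subset
    (inter_mem hV (isOpen_compl_singleton.mem_nhds (show k • L.ep x ∈ ({L.em x} : Set B)ᶜ from hk)))
  obtain ⟨U', hU'n, hU'c, hU'⟩ := exists_mem_nhds_isClosed_subset
    (inter_mem hU (isOpen_compl_singleton.mem_nhds
      (show L.em x ∈ ({k • L.ep x} : Set B)ᶜ from fun h' => hk h'.symm)))
  have hVn : (fun η => k • η) ⁻¹' V' ∈ 𝓝 (L.ep x) :=
    (continuous_const_smul k).continuousAt.preimage_mem_nhds hV'n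
  have hKU : IsCompact ((fun η => k⁻¹ • η) '' U') :=
    hU'c.isCompact.image (continuous_const_smul k⁻¹)
  filter_upwards [ev_ne_one h k, H147.Ax.north h hV'c.isCompact (fun h' => (hV' h').2 rfl) hVn,
    H147.Ax.south h hKU (by
      rintro ⟨η, hη, h1⟩
      have h2 : η = k • L.ep x := by rw [← h1, smul_inv_smul]
      exact (hU' hη).2 h2) hU'n] with m hm1 hm2 hm3
  obtain ⟨y, l', a', hl', hy⟩ := L.exists_axis _ hm1
  have hax : L.IsAxis (k * β ^ m) y l' a' := ⟨hl', hy⟩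
  refine ⟨y, l', a', hax, ?_, ?_⟩
  · obtain ⟨η, hη, hne⟩ : ∃ η ∈ U', η ≠ L.ep y := by
      by_cases h1 : L.em x = L.ep y
      · obtain ⟨η, hη, hne⟩ := exists_ne_mem L hU'n
        exact ⟨η, hη, by rw [← h1]; exact hne⟩
      · exact ⟨L.em x, mem_of_mem_nhds hU'n, h1⟩
    have h2 := ep_mem (H147.Ax.flip hax) hU'c (fun ζ hζ => by
      rw [mul_inv_rev, mul_smul]
      exact hm3 _ ⟨ζ, hζ, rfl⟩) hη (by rw [← L.ep_flip]; exact hne)
    rw [L.ep_flip, L.flip_flip] at h2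
    exact (hU' h2).1
  · obtain ⟨η, hη, hne⟩ : ∃ η ∈ V', η ≠ L.em y := by
      by_cases h1 : k • L.ep x = L.em y
      · obtain ⟨η, hη, hne⟩ := exists_ne_mem L hV'n
        exact ⟨η, hη, by rw [← h1]; exact hne⟩
      · exact ⟨k • L.ep x, mem_of_mem_nhds hV'n, h1⟩
    have h2 := ep_mem hax hV'c (fun ζ hζ => by
      rw [mul_smul]
      exact hm2 ζ hζ) hη hne
    exact (hV' h2).1

variable (L) in
/-- **the pairs of end points of axes are dense** -/
theorem dense_pairs {ξ η : B} (hne : ξ ≠ η) {U V : Set B} (hU : U ∈ 𝓝 ξ) (hV : V ∈ 𝓝 η) :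
    ∃ (θ : Γ) (y : X) (l' : ℝ) (a' : O2), L.IsAxis θ y l' a' ∧ L.em y ∈ U ∧ L.ep y ∈ V := by
  obtain ⟨β, x, l, a, h⟩ := exists_axis' L
  obtain ⟨U₀, V₀, hU₀, hV₀, hξ, hη, hd⟩ := t2_separation hne
  obtain ⟨_, ⟨g, rfl⟩, hg1, hg2⟩ := (L.dense_orbit (L.em x)).inter_nhds_nonempty
    (inter_mem (interior_mem_nhds.2 hU) (hU₀.mem_nhds hξ))
  obtain ⟨_, ⟨k, rfl⟩, hk1, hk2⟩ := (L.dense_orbit (L.ep x)).inter_nhds_nonempty
    (inter_mem (interior_mem_nhds.2 hV) (hV₀.mem_nhds hη))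
  simp only at hg1 hg2 hk1 hk2
  have e1 : g • ((g⁻¹ * k) • L.ep x) = k • L.ep x := by rw [smul_smul, mul_inv_cancel_left]
  have hne' : (g⁻¹ * k) • L.ep x ≠ L.em x := by
    intro h1
    rw [h1] at e1
    refine Set.disjoint_left.1 hd hg2 ?_
    rw [e1]
    exact hk2
  have hU' : (fun ζ => g • ζ) ⁻¹' U ∈ 𝓝 (L.em x) :=
    (continuous_const_smul g).continuousAt.preimage_mem_nhds (mem_interior_iff_mem_nhds.1 hg1)
  have hV' : (fun ζ => g • ζ) ⁻¹' V ∈ 𝓝 ((g⁻¹ * k) • L.ep x) := by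
    refine (continuous_const_smul g).continuousAt.preimage_mem_nhds ?_
    rw [e1]
    exact mem_interior_iff_mem_nhds.1 hk1
  obtain ⟨m, y, l', a', h1, h2, h3⟩ := (exists_pair h (g⁻¹ * k) hne' hU' hV').exists
  refine ⟨_, g • y, l', a', conj_axis h1 g, ?_, ?_⟩
  · rw [L.em_smul]; exact h2
  · rw [ep_smul]; exact h3

variable (L) in
/-- **the frames on axes are dense** -/
theorem dense_axes : Dense {x : X | ∃ (θ : Γ) (l : ℝ) (a : O2), L.IsAxis θ x l a} := by
  rw [dense_iff_inter_open]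
  rintro W hW ⟨w, hw⟩
  obtain ⟨O, hO, hwO, h⟩ := H732.exists_nhds_pair L hW hw
  obtain ⟨U, hU, V, hV, hUV⟩ := mem_nhds_prod_iff.1 (hO.mem_nhds hwO)
  obtain ⟨θ, y, l', a', h1, h2, h3⟩ := dense_pairs L (L.em_ne_ep w) hU hV
  obtain ⟨z, hzW, hz1, hz2⟩ := h (L.em y, L.ep y) (hUV ⟨h2, h3⟩)
  simp only at hz1 hz2
  -- `z` and `y` are frames over the same geodesic
  obtain ⟨b, hb⟩ := L.frame_unique (L.φ (L.lv z - L.lv y) y) z
    (by rw [L.em_φ, hz1]) (by rw [ep_φ, hz2]) (by rw [L.lv_φ]; ring)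
  refine ⟨z, hzW, θ, l', b⁻¹ * a' * b, ?_⟩
  rw [hb]
  exact rot_axis (φ_axis h1 _) b

/-- a closed property of frames which holds on all axes holds everywhere -/
theorem of_axes {P : X → Prop} (hP : IsClosed {x | P x})
    (h : ∀ (θ : Γ) (x : X) (l : ℝ) (a : O2), L.IsAxis θ x l a → P x) (x : X) : P x := by
  have h1 : closure {x : X | ∃ (θ : Γ) (l : ℝ) (a : O2), L.IsAxis θ x l a} ⊆ {x | P x} :=
    closure_minimal (fun x ⟨θ, l, a, hx⟩ => h θ x l a hx) hP
  rw [(dense_axes L).closure_eq] at h1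
  exact h1 (mem_univ x)

/-- The translates of one axis: the frames whose past end point is a translate of a given
boundary point are dense. -/
theorem of_orbit {P : X → Prop} (hP : IsClosed {x | P x}) (ξ : B)
    (h : ∀ (x : X) (g : Γ), L.em x = g • ξ → P x) (x : X) : P x := by
  have h1 : Dense {x : X | ∃ g : Γ, L.em x = g • ξ} := by
    rw [dense_iff_inter_open]
    rintro W hW ⟨w, hw⟩
    obtain ⟨O, hO, hwO, h⟩ := H732.exists_nhds_pair L hW hw
    obtain ⟨U, hU, V, hV, hUV⟩ := mem_nhds_prod_iff.1 (hO.mem_nhds hwO)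
    obtain ⟨_, ⟨g, rfl⟩, hg⟩ := (L.dense_orbit ξ).inter_nhds_nonempty hU
    obtain ⟨z, hzW, hz1, -⟩ := h (g • ξ, L.ep w) (hUV ⟨hg, mem_of_mem_nhds hV⟩)
    exact ⟨z, hzW, g, hz1⟩
  have h2 : closure {x : X | ∃ g : Γ, L.em x = g • ξ} ⊆ {x | P x} :=
    closure_minimal (fun x ⟨g, hx⟩ => h x g hx) hP
  rw [h1.closure_eq] at h2
  exact h2 (mem_univ x)

end Vale.Agent.P207.N3.H728
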