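import Vale.Agent.P207.N3.H728.Hol
import Vale.Agent.P207.N3.H709.Axis

/-!
# P207, N3: isometries act on the boundary of a Hadamard space; equivariance of end points, levels,
Busemann functions, joining lines and stable holonomy of lines
-/

open Set Filter Topology Metric Real
open Vale.Agent.P207.N3.H709

noncomputable section

namespace Vale.Agent.P207.N3.H728

variable {Y : Type*} [MetricSpace Y] {Γ : Type*} [Group Γ] [MulAction Γ Y] [IsIsometricSMul Γ Y]

theorem Asy.smul {c c' : Ln Y} (h : Asy c c') (g : Γ) : Asy (g • c) (g • c') := by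
  obtain ⟨C, hC⟩ := h
  exact ⟨C, fun t ht => by
    rw [smul_ln_apply, smul_ln_apply, dist_smul]
    exact hC t ht⟩

theorem asy_smul_iff {c c' : Ln Y} (g : Γ) : Asy (g • c) (g • c') ↔ Asy c c' := by
  refine ⟨fun h => ?_, fun h => h.smul g⟩
  have := h.smul g⁻¹
  rwa [inv_smul_smul, inv_smul_smul] at this

theorem bus_smul (g : Γ) (c : Ln Y) (x : Y) : bus (g • c) (g • x) = bus c x := by
  unfold bus
  congr 1
  ext T
  rw [smul_ln_apply, dist_smul]

theorem bus_smul' (g : Γ) (c : Ln Y) (x : Y) : bus (g • c) x = bus c (g⁻¹ • x) := by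
  rw [← bus_smul g c (g⁻¹ • x), smul_inv_smul]

/-- the cocycle of the Busemann functions -/
def coc {o : Y} (g : Γ) (ξ : Bd o) : ℝ := bus ξ.ln (g⁻¹ • o)

namespace Had

variable [ProperSpace Y] (H : Had Y)

theorem ray_smul (g : Γ) (x : Y) (c : Ln Y) : H.ray (g • x) (g • c) = g • H.ray x c := by
  symm
  apply H.eq_ray
  · rw [smul_ln_apply, H.ray_zero]
  · exact (H.ray_asy x c).smul g

variable (o : Y)

/-- the action of an isometry on the boundary -/
def actB (g : Γ) (ξ : Bd o) : Bd o := H.ep o (g • ξ.ln)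

theorem actB_ep (g : Γ) (c : Ln Y) : H.actB o g (H.ep o c) = H.ep o (g • c) :=
  (H.ep_eq_iff o).2 ((H.asy_ep o c).symm.smul g)

theorem actB_em (g : Γ) (c : Ln Y) : H.actB o g (H.em o c) = H.em o (g • c) := by
  unfold em
  rw [actB_ep, smul_flip]

theorem actB_one (ξ : Bd o) : H.actB o (1 : Γ) ξ = ξ := by
  unfold actB
  rw [one_smul, H.ep_self]

theorem actB_mul (g k : Γ) (ξ : Bd o) : H.actB o (g * k) ξ = H.actB o g (H.actB o k ξ) := by
  unfold actB
  rw [← H.ep_eq_iff o |>.2 ((H.asy_ep o (k • ξ.ln)).smul g), mul_smul]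

theorem continuous_actB (g : Γ) : Continuous (H.actB o g) :=
  (H.continuous_ep o).comp ((continuous_const_smul g).comp Bd.continuous_ln)

theorem actB_inj (g : Γ) : Function.Injective (H.actB o g) := fun ξ η h => by
  have := congrArg (H.actB o g⁻¹) h
  rwa [← actB_mul, ← actB_mul, inv_mul_cancel, actB_one, actB_one] at this

omit [IsIsometricSMul Γ Y] [ProperSpace Y] in
include H in
theorem continuous_coc (g : Γ) : Continuous fun ξ : Bd o => coc g ξ :=
  H.continuous_bus.comp (Bd.continuous_ln.prodMk continuous_const)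

theorem bus_actB (g : Γ) (ξ : Bd o) (x : Y) :
    bus (H.actB o g ξ).ln (g • x) = bus ξ.ln x - coc g ξ := by
  have h1 : Asy (g • ξ.ln) (H.actB o g ξ).ln := H.asy_ep o _
  rw [H.bus_change h1, bus_smul, Bd.ln_zero, bus_smul', coc]

theorem lvl_smul (g : Γ) (c : Ln Y) :
    H.lvl o (g • c) = H.lvl o c - coc g (H.em o c) := by
  unfold lvl
  rw [← actB_em, smul_ln_apply, bus_actB]

theorem lvl_smul_sub (g : Γ) {c c' : Ln Y} (h : H.em o c = H.em o c') :
    H.lvl o (g • c) - H.lvl o (g • c') = H.lvl o c - H.lvl o c' := by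
  rw [lvl_smul, lvl_smul, h]
  ring

theorem join_smul (g : Γ) {ξ η : Bd o} (h : ξ ≠ η) (t : ℝ) :
    g • H.join ξ η t = H.join (H.actB o g ξ) (H.actB o g η) (t - coc g ξ) := by
  apply H.eq_join
  · rw [← actB_em, H.em_join h]
  · rw [← actB_ep, H.ep_join h]
  · rw [lvl_smul, H.em_join h, H.lvl_join h]

theorem hol_smul (g : Γ) {ξ : Bd o} {c : Ln Y} (h : ξ ≠ H.ep o c) :
    H.hol (H.actB o g ξ) (g • c) = g • H.hol ξ c := by
  symm
  apply H.eq_hol
  · rw [← actB_em, H.em_hol h]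
  · rw [← actB_ep, H.ep_hol h, actB_ep]
  · rw [← smul_flip, lvl_smul, H.lvl_flip_hol h, ← smul_flip, lvl_smul]
    rw [H.em_flip, H.em_flip, H.ep_hol h]

theorem Dd_smul (g : Γ) {ξ η : Bd o} (h : ξ ≠ η) :
    H.Dd (H.actB o g ξ) (H.actB o g η) = H.Dd ξ η - coc g ξ - coc g η := by
  set c := H.join ξ η 0 with hc
  have h1 : H.em o c = ξ := H.em_join h 0
  have h2 : H.ep o c = η := H.ep_join h 0
  rw [← h1, ← h2, actB_em, actB_ep, Dd_eq, Dd_eq, ← smul_flip, lvl_smul, lvl_smul, H.em_flip]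
  ring

include H o in
/-- visibility -/
theorem visible {c c' : Ln Y} (h : ¬ Asy c c') : ∃ d : Ln Y, Asy d c ∧ Asy d.flip c' := by
  have hne : H.ep o c' ≠ H.ep o c := fun h' => h ((H.ep_eq_iff o).1 h'.symm)
  refine ⟨H.join (H.ep o c') (H.ep o c) 0, (H.ep_eq_iff o).1 (H.ep_join hne 0), ?_⟩
  refine (H.ep_eq_iff o).1 ?_
  rw [H.ep_flip, H.em_join hne]

end Had

end Vale.Agent.P207.N3.H728
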