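import Vale.Agent.P207.N3.H728.Equi

/-!
# P207, N3: the function `D` (minus twice the Gromov product), and the boundary with its action
-/

open Set Filter Topology Metric Real
open Vale.Agent.P207.N3.H709

noncomputable section

namespace Vale.Agent.P207.N3.H728

variable {Y : Type*} [MetricSpace Y]

theorem bus_add_nonneg (c : Ln Y) (x : Y) : 0 ≤ bus c x + bus c.flip x := by
  have h := (bus_tendsto c x).add (bus_tendsto c.flip x)
  refine ge_of_tendsto h (eventually_atTop.2 ⟨0, fun T hT => ?_⟩)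
  have h1 : dist (c T) (c (-T)) = 2 * T := by
    rw [Ln.dist_eq, abs_of_nonneg (by linarith)]
    ring
  have h2 := dist_triangle_left (c T) (c (-T)) x
  rw [Ln.flip_apply]
  linarith

theorem bus_flip_self (c : Ln Y) (t : ℝ) : bus c.flip (c t) = t := by
  have h : c t = c.flip (-t) := by rw [Ln.flip_apply, neg_neg]
  rw [h, bus_self, neg_neg]

namespace Had

variable (H : Had Y)

/-- distance to a line in terms of the two Busemann functions of the line -/
theorem cosh_dist_le (c : Ln Y) (x : Y) (t : ℝ) :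
    cosh (H.a * dist x (c t)) ≤
      (exp (H.a * (bus c.flip x - t)) + exp (H.a * (bus c x + t))) / 2 := by
  set A := bus c x with hA
  set A' := bus c.flip x with hA'
  have ha := H.a_pos
  have key : ∀ᶠ T : ℝ in atTop, (1 - exp (-(4 * H.a * T))) * (2 * cosh (H.a * dist x (c t))) ≤
      exp (-(H.a * t)) * (exp (H.a * (dist x (c.flip T) - T)) + exp (-(H.a * T))) +
        exp (H.a * t) * (exp (H.a * (dist x (c T) - T)) + exp (-(H.a * T))) := by
    filter_upwards [eventually_ge_atTop |t|] with T hT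
    have hT1 := abs_le.1 hT
    have hT0 : 0 ≤ T := (abs_nonneg t).trans hT
    have h := H.cat (c.φ (-T)) (c.φ (-T)).2 x (T + t) (2 * T) (by linarith) (by linarith)
    have e1 : (c.φ (-T)) (T + t) = c t := by
      rw [Ln.φ_apply]; congr 1; ring
    have e2 : (c.φ (-T)) 0 = c.flip T := by
      rw [Ln.φ_apply, Ln.flip_apply, zero_add]
    have e3 : (c.φ (-T)) (2 * T) = c T := by
      rw [Ln.φ_apply]; congr 1; ring
    rw [e1, e2, e3] at h
    have c1 : ∀ d : ℝ, 0 ≤ d → cosh (H.a * d) ≤ (exp (H.a * d) + 1) / 2 := fun d hd => by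
      rw [cosh_eq]
      have : exp (-(H.a * d)) ≤ 1 := exp_le_one_iff.2 (by nlinarith)
      linarith
    have c2 : ∀ r : ℝ, sinh r ≤ exp r / 2 := fun r => by
      rw [sinh_eq]
      have := exp_pos (-r)
      linarith
    have c3 : ∀ r d : ℝ, 0 ≤ r → 0 ≤ d → sinh r * cosh (H.a * d) ≤
        exp r / 2 * ((exp (H.a * d) + 1) / 2) := fun r d hr hd =>
      mul_le_mul (c2 r) (c1 d hd) (cosh_pos _).le (by positivity)
    have h1 := c3 (H.a * (2 * T - (T + t))) (dist x (c.flip T))
      (mul_nonneg ha.le (by linarith)) dist_nonneg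
    have h2 := c3 (H.a * (T + t)) (dist x (c T)) (mul_nonneg ha.le (by linarith)) dist_nonneg
    have h3 := h.trans (add_le_add h1 h2)
    have h4 : sinh (H.a * (2 * T)) = (exp (H.a * (2 * T)) - exp (-(H.a * (2 * T)))) / 2 :=
      sinh_eq _
    rw [h4] at h3
    have h5 := mul_le_mul_of_nonneg_left h3 (show 0 ≤ 4 * exp (-(2 * H.a * T)) by positivity)
    have g1 : exp (-(2 * H.a * T)) * exp (H.a * (2 * T)) = 1 := by
      rw [← exp_add]; ring_nf; exact exp_zero
    have g2 : exp (-(2 * H.a * T)) * exp (-(H.a * (2 * T))) = exp (-(4 * H.a * T)) := by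
      rw [← exp_add]; ring_nf
    have g3 : exp (-(2 * H.a * T)) * exp (H.a * (2 * T - (T + t))) =
        exp (-(H.a * t)) * exp (-(H.a * T)) := by
      rw [← exp_add, ← exp_add]; ring_nf
    have g4 : exp (-(2 * H.a * T)) * exp (H.a * (T + t)) =
        exp (H.a * t) * exp (-(H.a * T)) := by
      rw [← exp_add, ← exp_add]; ring_nf
    have g5 : ∀ d, exp (-(H.a * T)) * exp (H.a * d) = exp (H.a * (d - T)) := fun d => by
      rw [← exp_add]; ring_nf
    rw [← g5, ← g5]
    calc (1 - exp (-(4 * H.a * T))) * (2 * cosh (H.a * dist x (c t)))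
        = 4 * exp (-(2 * H.a * T)) * ((exp (H.a * (2 * T)) - exp (-(H.a * (2 * T)))) / 2 *
          cosh (H.a * dist x (c t))) := by
          linear_combination (-2 * cosh (H.a * dist x (c t))) * g1 +
            (2 * cosh (H.a * dist x (c t))) * g2
      _ ≤ _ := h5
      _ = _ := by
          linear_combination ((exp (H.a * dist x (c.flip T)) + 1)) * g3 +
            ((exp (H.a * dist x (c T)) + 1)) * g4
  have e0 : Tendsto (fun T : ℝ => exp (-(H.a * T))) atTop (𝓝 0) :=
    tendsto_exp_neg_atTop_nhds_zero.comp (tendsto_id.const_mul_atTop ha)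
  have e4 : Tendsto (fun T : ℝ => exp (-(4 * H.a * T))) atTop (𝓝 0) :=
    tendsto_exp_neg_atTop_nhds_zero.comp
      (tendsto_id.const_mul_atTop (show 0 < 4 * H.a by linarith))
  have l1 : Tendsto (fun T : ℝ => (1 - exp (-(4 * H.a * T))) * (2 * cosh (H.a * dist x (c t))))
      atTop (𝓝 ((1 - 0) * (2 * cosh (H.a * dist x (c t))))) :=
    (tendsto_const_nhds.sub e4).mul_const _
  have b1 : Tendsto (fun T : ℝ => exp (H.a * (dist x (c.flip T) - T))) atTop
      (𝓝 (exp (H.a * A'))) :=
    ((bus_tendsto c.flip x).const_mul H.a).rexp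
  have b2 : Tendsto (fun T : ℝ => exp (H.a * (dist x (c T) - T))) atTop
      (𝓝 (exp (H.a * A))) :=
    ((bus_tendsto c x).const_mul H.a).rexp
  have l2 := ((b1.add e0).const_mul (exp (-(H.a * t)))).add
    ((b2.add e0).const_mul (exp (H.a * t)))
  have h := le_of_tendsto_of_tendsto l1 l2 key
  have g1 : exp (-(H.a * t)) * exp (H.a * A') = exp (H.a * (A' - t)) := by
    rw [← exp_add]; ring_nf
  have g2 : exp (H.a * t) * exp (H.a * A) = exp (H.a * (A + t)) := by
    rw [← exp_add]; ring_nf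
  rw [add_zero, add_zero, g1, g2] at h
  linarith

/-- distance to the line, at the nearest level -/
theorem cosh_dist_le' (c : Ln Y) (x : Y) :
    cosh (H.a * dist x (c ((bus c.flip x - bus c x) / 2))) ≤
      exp (H.a * (bus c x + bus c.flip x) / 2) := by
  have h := H.cosh_dist_le c x ((bus c.flip x - bus c x) / 2)
  have e1 : H.a * (bus c.flip x - (bus c.flip x - bus c x) / 2) =
      H.a * (bus c x + bus c.flip x) / 2 := by ring
  have e2 : H.a * (bus c x + (bus c.flip x - bus c x) / 2) =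
      H.a * (bus c x + bus c.flip x) / 2 := by ring
  rw [e1, e2] at h
  linarith

include H in
/-- the sum of the two Busemann functions of a line vanishes exactly on the line -/
theorem bus_add_eq_zero {c : Ln Y} {x : Y} : bus c x + bus c.flip x = 0 ↔ ∃ t, c t = x := by
  refine ⟨fun h => ⟨(bus c.flip x - bus c x) / 2, ?_⟩, ?_⟩
  · have h1 := H.cosh_dist_le' c x
    rw [h, mul_zero, zero_div, exp_zero] at h1
    have h2 : H.a * dist x (c ((bus c.flip x - bus c x) / 2)) = 0 := by
      by_contra hne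
      exact absurd h1 (not_le.2 (one_lt_cosh.2 hne))
    rcases mul_eq_zero.1 h2 with h3 | h3
    · exact absurd h3 H.a_pos.ne'
    · exact (dist_eq_zero.1 h3).symm
  · rintro ⟨t, rfl⟩
    rw [bus_self, bus_flip_self]
    ring

variable [ProperSpace Y] {o : Y}

/-- the Busemann functions of the end points of a line, and those of the line -/
theorem bus_sum (c : Ln Y) (x : Y) : bus (H.em o c).ln x + bus (H.ep o c).ln x =
    H.Dd (H.em o c) (H.ep o c) + (bus c x + bus c.flip x) := by
  rw [H.bus_eq o c x, H.bus_flip o c x, H.Dd_eq]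
  ring

theorem Dd_le {ξ η : Bd o} (h : ξ ≠ η) (x : Y) : H.Dd ξ η ≤ bus ξ.ln x + bus η.ln x := by
  have e := H.bus_sum (o := o) (H.join ξ η 0) x
  rw [H.em_join h, H.ep_join h] at e
  have := bus_add_nonneg (H.join ξ η 0) x
  linarith

theorem Dd_eq_iff {ξ η : Bd o} (h : ξ ≠ η) (x : Y) :
    bus ξ.ln x + bus η.ln x = H.Dd ξ η ↔ ∃ c : Ln Y, H.em o c = ξ ∧ H.ep o c = η ∧ c 0 = x := by
  have e := H.bus_sum (o := o) (H.join ξ η 0) x
  rw [H.em_join h, H.ep_join h] at e
  have e1 : bus ξ.ln x + bus η.ln x = H.Dd ξ η ↔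
      bus (H.join ξ η 0) x + bus (H.join ξ η 0).flip x = 0 := by
    constructor <;> intro h' <;> linarith
  rw [e1, H.bus_add_eq_zero]
  constructor
  · rintro ⟨t, ht⟩
    refine ⟨(H.join ξ η 0).φ t, ?_, ?_, ?_⟩
    · rw [H.em_φ, H.em_join h]
    · rw [H.ep_φ, H.ep_join h]
    · rw [Ln.φ_apply, zero_add, ht]
  · rintro ⟨c, h1, h2, h3⟩
    have ht := H.exists_φ o (c := H.join ξ η 0) (c' := c)
      (by rw [H.em_join h, h1]) (by rw [H.ep_join h, h2])
    exact ⟨_, by rw [← h3, ht, Ln.φ_apply, zero_add]⟩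

theorem Dd_symm {ξ η : Bd o} (h : ξ ≠ η) : H.Dd ξ η = H.Dd η ξ := by
  have e := H.Dd_eq (o := o) (H.join ξ η 0)
  have e' := H.Dd_eq (o := o) (H.join ξ η 0).flip
  rw [H.em_flip, H.ep_flip, Ln.flip_flip, H.em_join h, H.ep_join h] at e'
  rw [H.em_join h, H.ep_join h] at e
  rw [e, e']
  ring

theorem Dd_nonpos {ξ η : Bd o} (h : ξ ≠ η) : H.Dd ξ η ≤ 0 := by
  have := H.Dd_le h o
  rwa [bus_base, bus_base, add_zero] at this

/-- `D → -∞` at the diagonal -/
theorem Dd_tendsto (ζ : Bd o) (M : ℝ) :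
    ∀ᶠ p : Bd o × Bd o in 𝓝 (ζ, ζ), p.1 ≠ p.2 → H.Dd p.1 p.2 < -M := by
  set T : ℝ := |M| + 1 with hT
  have hc : Continuous fun p : Bd o × Bd o => dist (p.1.ln T) (p.2.ln T) :=
    (((Ln.continuous_eval T).comp Bd.continuous_ln).comp continuous_fst).dist
      (((Ln.continuous_eval T).comp Bd.continuous_ln).comp continuous_snd)
  have h1 : ∀ᶠ p : Bd o × Bd o in 𝓝 (ζ, ζ), dist (p.1.ln T) (p.2.ln T) < 1 := by
    refine hc.continuousAt.eventually_lt_const ?_
    simp
  filter_upwards [h1] with p hp hne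
  have e1 := H.Dd_le hne (p.1.ln T)
  rw [bus_self] at e1
  have e2 := (abs_le.1 (bus_lip p.2.ln (p.1.ln T) (p.2.ln T))).2
  rw [bus_self] at e2
  have := neg_abs_le M
  have := le_abs_self M
  linarith

/-- the pairs with `D` bounded from below form a compact set -/
theorem isCompact_Dd (M : ℝ) :
    IsCompact {p : Bd o × Bd o | p.1 ≠ p.2 ∧ -M ≤ H.Dd p.1 p.2} := by
  refine IsClosed.isCompact (isClosed_of_closure_subset fun p hp => ?_)
  by_cases hd : p.1 = p.2
  · exfalso
    obtain ⟨ζ, ζ'⟩ := p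
    simp only at hd
    subst hd
    obtain ⟨q, hq1, hq2, hq3⟩ := mem_closure_iff_nhds.1 hp _ (H.Dd_tendsto ζ M)
    exact absurd (hq1 hq2) (not_lt.2 hq3)
  · refine ⟨hd, ?_⟩
    have hopen : IsOpen {p : Bd o × Bd o | p.1 ≠ p.2} :=
      isOpen_ne_fun continuous_fst continuous_snd
    have hcont : ContinuousAt (fun p : Bd o × Bd o => H.Dd p.1 p.2) p :=
      H.continuousOn_Dd.continuousAt (hopen.mem_nhds hd)
    by_contra hlt
    push Not at hlt
    obtain ⟨q, hq1, hq2, hq3⟩ := mem_closure_iff_nhds.1 hp _ (hcont.eventually_lt_const hlt)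
    exact absurd hq1 (not_lt.2 hq3)

/-- the line comes close to the base point -/
theorem cosh_join_le {ξ η : Bd o} (h : ξ ≠ η) : ∃ c : Ln Y, H.em o c = ξ ∧ H.ep o c = η ∧
    cosh (H.a * dist o (c 0)) ≤ exp (-(H.a * H.Dd ξ η / 2)) := by
  set c := H.join ξ η 0 with hc
  have e := H.bus_sum (o := o) c o
  rw [H.em_join h, H.ep_join h, bus_base, bus_base] at e
  refine ⟨c.φ ((bus c.flip o - bus c o) / 2), ?_, ?_, ?_⟩
  · rw [H.em_φ, H.em_join h]
  · rw [H.ep_φ, H.ep_join h]
  · rw [Ln.φ_apply, zero_add]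
    refine (H.cosh_dist_le' c o).trans_eq ?_
    congr 1
    linear_combination (-(H.a / 2)) * e

end Had

end Vale.Agent.P207.N3.H728
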