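import Vale.Agent.P207.N3.H728.Ray

/-!
# P207, N3: Busemann functions (metric core)
-/

open Set Filter Topology Metric Real

noncomputable section

namespace Vale.Agent.P207.N3.H728

variable {Y : Type*} [MetricSpace Y]

/-- the Busemann function of a line -/
def bus (c : Ln Y) (x : Y) : ℝ := ⨅ T : ℝ, (dist x (c T) - T)

section Basic

variable (c : Ln Y) (x y : Y)

theorem anti : Antitone fun T : ℝ => dist x (c T) - T := by
  intro T T' h
  have h1 := dist_triangle x (c T) (c T')
  rw [Ln.dist_eq, abs_sub_comm, abs_of_nonneg (sub_nonneg.2 h)] at h1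
  change dist x (c T') - T' ≤ dist x (c T) - T
  linarith

theorem bdd : BddBelow (range fun T : ℝ => dist x (c T) - T) := by
  refine ⟨-dist x (c 0), ?_⟩
  rintro _ ⟨T, rfl⟩
  have h1 := dist_triangle (c T) x (c 0)
  rw [Ln.dist_eq, sub_zero, dist_comm (c T) x] at h1
  have h2 := le_abs_self T
  change -dist x (c 0) ≤ dist x (c T) - T
  linarith

theorem bus_tendsto : Tendsto (fun T : ℝ => dist x (c T) - T) atTop (𝓝 (bus c x)) :=
  tendsto_atTop_ciInf (anti c x) (bdd c x)

theorem bus_le (T : ℝ) : bus c x ≤ dist x (c T) - T := ciInf_le (bdd c x) T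

theorem bus_lip : |bus c x - bus c y| ≤ dist x y := by
  refine le_of_tendsto ((bus_tendsto c x).sub (bus_tendsto c y)).abs ?_
  refine Filter.Eventually.of_forall fun T => ?_
  have h := abs_dist_sub_le x y (c T)
  rwa [sub_sub_sub_cancel_right]

theorem continuous_bus_right : Continuous (bus c) :=
  (LipschitzWith.of_dist_le_mul (K := 1) fun x y => by
    rw [Real.dist_eq, NNReal.coe_one, one_mul]
    exact bus_lip c x y).continuous

theorem bus_self (t : ℝ) : bus c (c t) = -t := by
  have h1 := bus_tendsto c (c t)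
  refine tendsto_nhds_unique h1 (tendsto_const_nhds.congr' ?_)
  filter_upwards [eventually_ge_atTop t] with T hT
  rw [Ln.dist_eq, abs_sub_comm, abs_of_nonneg (sub_nonneg.2 hT)]
  ring

theorem bus_φ (s : ℝ) : bus (c.φ s) x = bus c x + s := by
  have h1 := bus_tendsto (c.φ s) x
  have h2 := ((bus_tendsto c x).comp (tendsto_atTop_add_const_right atTop s tendsto_id)).add_const s
  refine tendsto_nhds_unique h1 (h2.congr fun T => ?_)
  simp only [Function.comp, id, Ln.φ_apply]
  ring

end Basic

namespace Had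

variable (H : Had Y)

include H

/-- the constant of the convergence -/
def ρ (D : ℝ) : ℝ := (H.κ (2 * D) + 4 * D) * exp (H.a * D)

theorem ρ_nonneg {D : ℝ} (hD : 0 ≤ D) : 0 ≤ H.ρ D := by
  have := H.κ_nonneg (R := 2 * D) (by linarith)
  unfold ρ
  positivity

theorem excess (c : Ln Y) (x : Y) {T T' D : ℝ} (hT : 0 ≤ T) (hTT : T ≤ T')
    (hD : dist x (c 0) ≤ D) :
    (dist x (c T) - T) - (dist x (c T') - T') ≤ H.ρ D * exp (-(H.a * T)) := by
  have ha := H.a_pos
  have hD0 : 0 ≤ D := dist_nonneg.trans hD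
  have hκ : 0 ≤ H.κ (2 * D) := H.κ_nonneg (by linarith)
  have hρ : H.ρ D * exp (-(H.a * T)) = (H.κ (2 * D) + 4 * D) * exp (-(H.a * (T - D))) := by
    unfold ρ
    rw [mul_assoc, ← exp_add]
    congr 2
    ring
  rw [hρ]
  rcases le_total D T with h | h
  · set l := dist x (c T') with hl
    set r := H.through x (c T') with hr
    have hr0 : r 0 = x := H.through_zero _ _
    have hrl : r l = c T' := H.through_dist _ _
    obtain ⟨h1, h2⟩ := start c r hr0 (hT.trans hTT) hl hD
    set L := min T' l with hL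
    have hu : 0 ≤ T' - T := sub_nonneg.2 hTT
    have huL : T' - T ≤ L := by linarith
    have h3 := (H.back c r hrl hu huL).1
    rw [sub_sub_cancel] at h3
    have h4 := H.le_κ dist_nonneg h3
    have h5 : sinh (H.a * dist (c (T' - L)) (r (l - L)) / 2) ≤ sinh (H.a * (2 * D) / 2) := by
      rw [sinh_le_sinh]
      nlinarith
    have h5' : 0 ≤ sinh (H.a * dist (c (T' - L)) (r (l - L)) / 2) :=
      sinh_nonneg_iff.2 (by positivity)
    have h6 : exp (-(H.a * (L - (T' - T)))) ≤ exp (-(H.a * (T - D))) := by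
      rw [exp_le_exp]
      nlinarith
    have h7 : dist (c T) (r (l - (T' - T))) ≤ H.κ (2 * D) * exp (-(H.a * (T - D))) := by
      refine h4.trans ?_
      unfold κ
      have h8 : exp (-(H.a * (L - (T' - T)))) * sinh (H.a * dist (c (T' - L)) (r (l - L)) / 2) ≤
          exp (-(H.a * (T - D))) * sinh (H.a * (2 * D) / 2) := by gcongr
      calc 2 / H.a * (exp (-(H.a * (L - (T' - T)))) *
            sinh (H.a * dist (c (T' - L)) (r (l - L)) / 2))
          ≤ 2 / H.a * (exp (-(H.a * (T - D))) * sinh (H.a * (2 * D) / 2)) := by gcongr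
        _ = _ := by ring
    have h9 : dist x (r (l - (T' - T))) = l - (T' - T) := by
      rw [← hr0, Ln.dist_eq, zero_sub, abs_neg, abs_of_nonneg]
      have := min_le_right T' l
      linarith
    have h10 := dist_triangle x (r (l - (T' - T))) (c T)
    rw [h9, dist_comm (r (l - (T' - T))) (c T)] at h10
    have h11 : 0 ≤ 4 * D * exp (-(H.a * (T - D))) := by positivity
    calc dist x (c T) - T - (l - T') ≤ dist (c T) (r (l - (T' - T))) := by linarith
      _ ≤ H.κ (2 * D) * exp (-(H.a * (T - D))) := h7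
      _ ≤ _ := by
        rw [add_mul]
        linarith
  · have h1 : T' - T ≤ dist x (c T) + dist x (c T') := by
      have := dist_triangle (c T) x (c T')
      rw [Ln.dist_eq, abs_sub_comm, abs_of_nonneg (sub_nonneg.2 hTT), dist_comm (c T) x] at this
      exact this
    have h2 : dist x (c T) ≤ D + T := by
      have := dist_triangle x (c 0) (c T)
      rw [Ln.dist_eq, zero_sub, abs_neg, abs_of_nonneg hT] at this
      linarith
    have h3 : 1 ≤ exp (-(H.a * (T - D))) := by
      rw [one_le_exp_iff]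
      nlinarith
    have h4 : 4 * D ≤ (H.κ (2 * D) + 4 * D) * exp (-(H.a * (T - D))) := by
      calc 4 * D ≤ (H.κ (2 * D) + 4 * D) * 1 := by linarith
        _ ≤ _ := by gcongr
    linarith

theorem bus_rate (c : Ln Y) (x : Y) {T D : ℝ} (hT : 0 ≤ T) (hD : dist x (c 0) ≤ D) :
    |dist x (c T) - T - bus c x| ≤ H.ρ D * exp (-(H.a * T)) := by
  rw [abs_of_nonneg (sub_nonneg.2 (bus_le c x T))]
  refine le_of_tendsto (tendsto_const_nhds.sub (bus_tendsto c x)) ?_
  filter_upwards [eventually_ge_atTop T] with T' hT'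
  exact H.excess c x hT hT' hD

theorem ρ_mono {D D' : ℝ} (hD : 0 ≤ D) (h : D ≤ D') : H.ρ D ≤ H.ρ D' := by
  have ha := H.a_pos
  have h1 : H.κ (2 * D) ≤ H.κ (2 * D') := H.κ_mono (by linarith)
  have h2 : 0 ≤ H.κ (2 * D) := H.κ_nonneg (by linarith)
  unfold ρ
  have h3 : exp (H.a * D) ≤ exp (H.a * D') := by
    rw [exp_le_exp]
    nlinarith
  have h4 : H.κ (2 * D) + 4 * D ≤ H.κ (2 * D') + 4 * D' := by linarith
  have h5 : 0 ≤ H.κ (2 * D) + 4 * D := by linarith
  exact mul_le_mul h4 h3 (exp_pos _).le (h5.trans h4)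

/-- the Busemann function is jointly continuous -/
theorem continuous_bus : Continuous fun p : Ln Y × Y => bus p.1 p.2 := by
  have ha := H.a_pos
  rw [continuous_iff_continuousAt]
  rintro ⟨c, x⟩
  set D := dist x (c 0) + 1 with hD
  have hD0 : 0 ≤ D := by positivity
  refine continuousAt_of_locally_uniform_approx_of_continuousAt fun u hu => ?_
  obtain ⟨ε, hε, hεu⟩ := Metric.mem_uniformity_dist.1 hu
  have h1 : ∀ᶠ p : Ln Y × Y in 𝓝 (c, x), dist p.2 (p.1 0) < D := by
    have h2 : Continuous fun p : Ln Y × Y => dist p.2 (p.1 0) :=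
      continuous_snd.dist ((Ln.continuous_eval 0).comp continuous_fst)
    exact h2.continuousAt.eventually_lt continuousAt_const (by simp [hD])
  have h2 : Tendsto (fun T : ℝ => H.ρ D * exp (-(H.a * T))) atTop (𝓝 (H.ρ D * 0)) :=
    Tendsto.const_mul _ (tendsto_exp_neg_atTop_nhds_zero.comp
      (Tendsto.const_mul_atTop ha tendsto_id))
  rw [mul_zero] at h2
  obtain ⟨T, hT0, hT⟩ := ((eventually_ge_atTop (0 : ℝ)).and (h2.eventually_lt_const hε)).exists
  refine ⟨_, h1, fun p => dist p.2 (p.1 T) - T, ?_, fun p hp => hεu ?_⟩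
  · exact ((continuous_snd.dist ((Ln.continuous_eval T).comp continuous_fst)).sub
      continuous_const).continuousAt
  · rw [dist_comm, Real.dist_eq]
    exact (H.bus_rate p.1 p.2 hT0 (le_of_lt hp)).trans_lt hT

/-- convergence of the segments to the asymptotic line -/
theorem seg_tendsto {c c' : Ln Y} (h : Asy c c') {t : ℝ} (ht : 0 ≤ t) :
    Tendsto (fun T => dist (H.through (c' 0) (c T) t) (c' t)) atTop (𝓝 0) := by
  have ha := H.a_pos
  obtain ⟨C, hC⟩ := h
  set x := c' 0 with hx
  set D := dist x (c 0) with hD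
  have hκ : 0 ≤ H.κ (C + D) := H.κ_nonneg (by
    have := dist_nonneg.trans (hC 0 le_rfl)
    positivity)
  have h2 : Tendsto (fun T : ℝ => H.κ (C + D) * exp (-(H.a * (T - (D + t))))) atTop
      (𝓝 (H.κ (C + D) * 0)) :=
    Tendsto.const_mul _ (tendsto_exp_neg_atTop_nhds_zero.comp
      (Tendsto.const_mul_atTop ha (tendsto_atTop_add_const_right _ _ tendsto_id)))
  rw [mul_zero] at h2
  refine squeeze_zero' (Eventually.of_forall fun T => dist_nonneg) ?_ h2
  filter_upwards [eventually_ge_atTop (D + t)] with T hT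
  have hD0 : 0 ≤ D := dist_nonneg
  have hT0 : 0 ≤ T := by linarith
  have h3 := abs_le.1 (abs_len c x hT0)
  set l := dist x (c T) with hl
  have h4 : t ≤ l := by linarith [h3.1]
  have h5 : dist (H.through x (c T) l) (c' l) ≤ C + D := by
    rw [hl, H.through_dist, ← hl]
    calc dist (c T) (c' l) ≤ dist (c T) (c' T) + dist (c' T) (c' l) := dist_triangle _ _ _
      _ ≤ C + D := by
        gcongr
        · exact hC T hT0
        · rw [Ln.dist_eq, abs_le]
          constructor <;> linarith [h3.1, h3.2]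
  have h6 := H.hinge_κ _ c' (by rw [H.through_zero]) ht h4 h5
  refine h6.trans (mul_le_mul_of_nonneg_left (exp_le_exp.2 (neg_le_neg
    (mul_le_mul_of_nonneg_left ?_ ha.le))) hκ)
  linarith [h3.1]

theorem bus_asy_nonneg {c c' : Ln Y} (h : Asy c c') {t : ℝ} (ht : 0 ≤ t) :
    bus c (c' t) = bus c (c' 0) - t := by
  refine le_antisymm ?_ ?_
  · have h1 := (bus_tendsto c (c' 0)).sub_const t
    have h2 := (H.seg_tendsto h ht).add h1
    rw [zero_add] at h2
    refine le_of_tendsto_of_tendsto (bus_tendsto c (c' t)) h2 ?_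
    have h3 : ∀ᶠ T in atTop, t ≤ dist (c' 0) (c T) := by
      filter_upwards [eventually_ge_atTop (dist (c' 0) (c 0) + t)] with T hT
      have h4 := abs_le.1 (abs_len c (c' 0) (T := T) (by
        have : 0 ≤ dist (c' 0) (c 0) := dist_nonneg
        linarith))
      linarith [h4.1]
    filter_upwards [h3] with T hT
    set r := H.through (c' 0) (c T) with hr
    have h4 := dist_triangle (c' t) (r t) (c T)
    have h5 : dist (r t) (c T) = dist (c' 0) (c T) - t := by
      have h6 : c T = r (dist (c' 0) (c T)) := (H.through_dist _ _).symm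
      rw [h6, Ln.dist_eq, ← h6, abs_sub_comm, abs_of_nonneg (sub_nonneg.2 hT)]
    rw [h5, dist_comm (c' t) (r t)] at h4
    linarith
  · have h1 := abs_le.1 (bus_lip c (c' t) (c' 0))
    rw [Ln.dist_eq, sub_zero, abs_of_nonneg ht] at h1
    linarith [h1.1]

/-- the Busemann function of `c` on a line asymptotic to `c` -/
theorem bus_asy {c c' : Ln Y} (h : Asy c c') (t : ℝ) : bus c (c' t) = bus c (c' 0) - t := by
  rcases le_total 0 t with ht | ht
  · exact H.bus_asy_nonneg h ht
  · have h1 : Asy c (c'.φ t) := h.trans (Asy.shift t c')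
    have h2 := H.bus_asy_nonneg h1 (t := -t) (by linarith)
    simp only [Ln.φ_apply, neg_add_cancel, zero_add] at h2
    linarith

/-- **asymptotic lines of equal level approach each other exponentially** -/
theorem decay {c c' : Ln Y} (h : Asy c c') (h0 : bus c (c' 0) = 0) {s : ℝ} (hs : 0 ≤ s) :
    sinh (H.a * dist (c s) (c' s) / 2) ≤ exp (-(H.a * s)) * sinh (H.a * dist (c 0) (c' 0) / 2) := by
  have ha := H.a_pos
  rcases hs.eq_or_lt with rfl | hs'
  · simp
  set x := c' 0 with hx
  set r : ℝ → Ln Y := fun T => H.through x (c T) with hr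
  set l : ℝ → ℝ := fun T => dist x (c T) with hl
  set L : ℝ → ℝ := fun T => min T (l T) with hL
  have hlim : Tendsto (fun T => l T - T) atTop (𝓝 0) := by
    have := bus_tendsto c x
    rwa [h0] at this
  have hlim' : Tendsto (fun T => T - L T) atTop (𝓝 0) := by
    have h1 : ∀ T, T - L T = max 0 (-(l T - T)) := by
      intro T
      simp only [hL]
      rcases le_total T (l T) with h | h
      · rw [min_eq_left h, max_eq_left (by linarith), sub_self]
      · rw [min_eq_right h, max_eq_right (by linarith)]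
        ring
    have h2 : Tendsto (fun T => max 0 (-(l T - T))) atTop (𝓝 (max 0 (-0))) :=
      tendsto_const_nhds.max hlim.neg
    rw [neg_zero, max_self] at h2
    exact h2.congr fun T => (h1 T).symm
  have hlim'' : Tendsto (fun T => l T - L T) atTop (𝓝 0) := by
    have h1 := hlim.add hlim'
    rw [add_zero] at h1
    exact h1.congr fun T => by ring
  -- the points of the comparison
  have p1 : Tendsto (fun T => dist (c s) (r T (l T - (T - s)))) atTop (𝓝 (dist (c s) (c' s))) := by
    have h1 := H.seg_tendsto h hs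
    have h2 : Tendsto (fun T => |l T - T| + dist (r T s) (c' s)) atTop (𝓝 0) := by
      have := hlim.abs.add h1
      simpa using this
    rw [tendsto_iff_dist_tendsto_zero]
    refine squeeze_zero (fun _ => dist_nonneg) (fun T => ?_) h2
    rw [Real.dist_eq, dist_comm (c s), dist_comm (c s)]
    refine (abs_dist_sub_le _ _ _).trans ?_
    calc dist (r T (l T - (T - s))) (c' s) ≤ dist (r T (l T - (T - s))) (r T s) +
          dist (r T s) (c' s) := dist_triangle _ _ _
      _ = _ := by
        rw [Ln.dist_eq]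
        congr 2
        ring
  have p2 : Tendsto (fun T => dist (c (T - L T)) (r T (l T - L T))) atTop
      (𝓝 (dist (c 0) (c' 0))) := by
    have h2 : Tendsto (fun T => |T - L T| + |l T - L T|) atTop (𝓝 0) := by
      have := hlim'.abs.add hlim''.abs
      simpa using this
    rw [tendsto_iff_dist_tendsto_zero]
    refine squeeze_zero (fun _ => dist_nonneg) (fun T => ?_) h2
    have e1 : dist (c (T - L T)) (c 0) = |T - L T| := by rw [Ln.dist_eq, sub_zero]
    have e2 : dist (r T (l T - L T)) (c' 0) = |l T - L T| := by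
      have : c' 0 = r T 0 := (H.through_zero _ _).symm
      rw [this, Ln.dist_eq, sub_zero]
    rw [← e1, ← e2]
    exact dist_dist_dist_le _ _ _ _
  have p3 : Tendsto (fun T => exp (-(H.a * (L T - (T - s))))) atTop (𝓝 (exp (-(H.a * s)))) := by
    have h1 : Tendsto (fun T => -(H.a * (s - (T - L T)))) atTop (𝓝 (-(H.a * (s - 0)))) :=
      ((tendsto_const_nhds.sub hlim').const_mul H.a).neg
    rw [sub_zero] at h1
    refine (continuous_exp.tendsto _).comp (h1.congr fun T => ?_)
    ring
  have hcs : Continuous fun d : ℝ => sinh (H.a * d / 2) :=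
    continuous_sinh.comp ((continuous_const.mul continuous_id).div_const _)
  refine le_of_tendsto_of_tendsto ((hcs.tendsto _).comp p1) (p3.mul ((hcs.tendsto _).comp p2)) ?_
  have h3 : ∀ᶠ T in atTop, T - L T < s := hlim'.eventually_lt_const hs'
  filter_upwards [h3, eventually_ge_atTop s] with T hT hTs
  have h4 := (H.back c (r T) (H.through_dist _ _) (sub_nonneg.2 hTs) (L := L T)
    (by linarith)).1
  rw [sub_sub_cancel] at h4
  exact h4

theorem decay_κ {c c' : Ln Y} (h : Asy c c') (h0 : bus c (c' 0) = 0) {s R : ℝ} (hs : 0 ≤ s)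
    (hR : dist (c 0) (c' 0) ≤ R) : dist (c s) (c' s) ≤ H.κ R * exp (-(H.a * s)) := by
  have ha := H.a_pos
  have h1 := H.le_κ dist_nonneg (H.decay h h0 hs)
  refine h1.trans ?_
  have h3 : sinh (H.a * dist (c 0) (c' 0) / 2) ≤ sinh (H.a * R / 2) := by
    rw [sinh_le_sinh]
    nlinarith
  unfold κ
  calc 2 / H.a * (exp (-(H.a * s)) * sinh (H.a * dist (c 0) (c' 0) / 2))
      ≤ 2 / H.a * (exp (-(H.a * s)) * sinh (H.a * R / 2)) := by gcongr
    _ = _ := by ring

/-- change of the line in the Busemann function -/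
theorem bus_change {c c' : Ln Y} (h : Asy c c') (x : Y) : bus c' x = bus c x - bus c (c' 0) := by
  have ha := H.a_pos
  set β := bus c (c' 0) with hβ
  have h1 : Asy c (c'.φ β) := h.trans (Asy.shift β c')
  have h2 : bus c (c'.φ β 0) = 0 := by
    rw [Ln.φ_apply, zero_add, H.bus_asy h, sub_self]
  have h3 : Tendsto (fun T => dist (c T) (c'.φ β T)) atTop (𝓝 0) := by
    have h4 : Tendsto (fun T : ℝ => H.κ (dist (c 0) (c'.φ β 0)) * exp (-(H.a * T))) atTop
        (𝓝 (H.κ (dist (c 0) (c'.φ β 0)) * 0)) :=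
      Tendsto.const_mul _ (tendsto_exp_neg_atTop_nhds_zero.comp
        (Tendsto.const_mul_atTop ha tendsto_id))
    rw [mul_zero] at h4
    refine squeeze_zero' (Eventually.of_forall fun _ => dist_nonneg) ?_ h4
    filter_upwards [eventually_ge_atTop (0 : ℝ)] with T hT
    exact H.decay_κ h1 h2 hT le_rfl
  have h4 : bus (c'.φ β) x = bus c x := by
    refine tendsto_nhds_unique (bus_tendsto (c'.φ β) x) ?_
    have h5 : Tendsto (fun T => (dist x (c'.φ β T) - T) - (dist x (c T) - T)) atTop (𝓝 0) := by
      refine squeeze_zero_norm (fun T => ?_) h3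
      rw [Real.norm_eq_abs, sub_sub_sub_cancel_right, dist_comm x (c'.φ β T), dist_comm x (c T),
        dist_comm (c T) (c'.φ β T)]
      exact abs_dist_sub_le _ _ _
    have h6 := h5.add (bus_tendsto c x)
    rw [zero_add] at h6
    exact h6.congr fun T => by ring
  rw [bus_φ] at h4
  linarith

/-- lines which are asymptotic in the future and in the past -/
theorem eq_of_two {c c' : Ln Y} (h : Asy c c') (h' : Asy c.flip c'.flip)
    (h0 : bus c (c' 0) = 0) : c = c' := by
  have ha := H.a_pos
  refine Had.Asy.eq H h ?_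
  obtain ⟨C, hC⟩ := h'
  have h1 : ∀ u : ℝ, 0 ≤ u →
      sinh (H.a * dist (c 0) (c' 0) / 2) ≤ exp (-(H.a * u)) * sinh (H.a * C / 2) := by
    intro u hu
    have h2 : bus (c.φ (-u)) (c'.φ (-u) 0) = 0 := by
      rw [bus_φ, Ln.φ_apply, zero_add, H.bus_asy h, h0]
      ring
    have h3 := H.decay (h.φ (-u) (-u)) h2 hu
    simp only [Ln.φ_apply, add_neg_cancel, zero_add] at h3
    refine h3.trans ?_
    have h4 := hC u hu
    simp only [Ln.flip_apply] at h4
    have h5 : sinh (H.a * dist (c (-u)) (c' (-u)) / 2) ≤ sinh (H.a * C / 2) := by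
      rw [sinh_le_sinh]
      nlinarith
    gcongr
  have h2 : Tendsto (fun u : ℝ => exp (-(H.a * u)) * sinh (H.a * C / 2)) atTop
      (𝓝 (0 * sinh (H.a * C / 2))) :=
    Tendsto.mul_const _ (tendsto_exp_neg_atTop_nhds_zero.comp
      (Tendsto.const_mul_atTop ha tendsto_id))
  rw [zero_mul] at h2
  have h3 : sinh (H.a * dist (c 0) (c' 0) / 2) ≤ 0 := ge_of_tendsto h2 (by
    filter_upwards [eventually_ge_atTop (0 : ℝ)] with u hu using h1 u hu)
  have h4 := sinh_nonpos_iff.1 h3
  have h5 : dist (c 0) (c' 0) ≤ 0 := by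
    by_contra hcon
    push Not at hcon
    have := mul_pos ha hcon
    linarith
  exact dist_le_zero.1 h5

end Had

end Vale.Agent.P207.N3.H728
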