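import Vale.Agent.P207.N3.Top.Ret
import Vale.Agent.P207.N3.H576.Quart

/-!
# P207, N3: growth of the powers of a plane map whose eigenvalues have equal moduli; eigenbasis
otherwise
-/

open Set Filter Topology Metric

set_option maxSynthPendingDepth 3

noncomputable section

namespace Vale.Agent.P207.N3.H728

open H576 (bv)

/-! ### Cayley-Hamilton -/

theorem mx_inj {M M' : E2 →L[ℝ] E2} (h : mx M = mx M') : M = M' := by
  unfold mx at h
  have h1 := (LinearMap.toMatrix _ _).injective h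
  ext v
  have h2 := congrArg (fun f : E2 →ₗ[ℝ] E2 => f v) h1
  exact congrFun (congrArg _ h2) _

theorem mx_add (M M' : E2 →L[ℝ] E2) : mx (M + M') = mx M + mx M' := by
  ext i j
  simp [mx_apply]

theorem mx_smul (c : ℝ) (M : E2 →L[ℝ] E2) : mx (c • M) = c • mx M := by
  ext i j
  simp [mx_apply]

theorem mx_one : mx (1 : E2 →L[ℝ] E2) = 1 := by
  ext i j
  rw [mx_apply, Matrix.one_apply]
  fin_cases i <;> fin_cases j <;> simp

theorem mx_mul (M M' : E2 →L[ℝ] E2) : mx (M * M') = mx M * mx M' := mx_comp M M'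

theorem cayley (M : E2 →L[ℝ] E2) : M * M + M.det • (1 : E2 →L[ℝ] E2) = tr2 M • M := by
  apply mx_inj
  rw [mx_add, mx_mul, mx_smul, mx_smul, mx_one, tr2_eq, det_eq]
  ext i j
  fin_cases i <;> fin_cases j <;>
    simp [Matrix.mul_apply, Fin.sum_univ_two, Matrix.trace_fin_two, Matrix.det_fin_two] <;> ring

/-! ### the recursion -/

/-- `sin (n θ) / sin θ` -/
def uu (θ : ℝ) : ℕ → ℝ
  | 0 => 0
  | n + 1 => Real.cos θ * uu θ n + Real.cos (n * θ)

theorem uu_sin (θ : ℝ) (n : ℕ) : Real.sin θ * uu θ n = Real.sin (n * θ) := by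
  induction n with
  | zero => simp [uu]
  | succ n ih =>
    have e : ((n + 1 : ℕ) : ℝ) * θ = n * θ + θ := by push_cast; ring
    rw [uu, e, Real.sin_add]
    linear_combination Real.cos θ * ih

theorem uu_rec (θ : ℝ) (n : ℕ) : uu θ (n + 2) = 2 * Real.cos θ * uu θ (n + 1) - uu θ n := by
  have e : ((n + 1 : ℕ) : ℝ) * θ = n * θ + θ := by push_cast; ring
  have h := uu_sin θ n
  have h2 := Real.sin_sq_add_cos_sq θ
  rw [uu, uu, e, Real.cos_add]
  linear_combination (-(uu θ n)) * h2 + Real.sin θ * h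

theorem abs_uu (θ : ℝ) (n : ℕ) : |uu θ n| ≤ n := by
  induction n with
  | zero => simp [uu]
  | succ n ih =>
    rw [uu]
    push_cast
    calc |Real.cos θ * uu θ n + Real.cos (n * θ)|
        ≤ |Real.cos θ| * |uu θ n| + |Real.cos (n * θ)| := by
          rw [← abs_mul]
          exact abs_add_le _ _
      _ ≤ 1 * n + 1 := by
          refine add_le_add ?_ (Real.abs_cos_le_one _)
          exact mul_le_mul (Real.abs_cos_le_one _) ih (abs_nonneg _) zero_le_one
      _ = n + 1 := by ring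

theorem pow_uu {A : E2 →L[ℝ] E2} {θ : ℝ} (h : A * A = (2 * Real.cos θ) • A - 1) (n : ℕ) :
    A ^ (n + 1) = uu θ (n + 1) • A - uu θ n • 1 := by
  induction n with
  | zero => simp [uu]
  | succ n ih =>
    rw [pow_succ, ih, sub_mul, smul_mul_assoc, h, smul_mul_assoc, one_mul, smul_sub, uu_rec,
      smul_smul, sub_smul]
    rw [show uu θ (n + 1) * (2 * Real.cos θ) = 2 * Real.cos θ * uu θ (n + 1) by ring]
    abel

/-- normalised growth -/
theorem growth_norm {A : E2 →L[ℝ] E2} {τ σ : ℝ} (h : A * A + σ • (1 : E2 →L[ℝ] E2) = τ • A)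
    (hσ : (σ = 1 ∧ |τ| ≤ 2) ∨ (σ = -1 ∧ τ = 0)) (n : ℕ) :
    ‖A ^ n‖ ≤ (1 + ‖A‖) * (n + 1) := by
  have h1 : ‖(1 : E2 →L[ℝ] E2)‖ ≤ 1 := ContinuousLinearMap.norm_id_le
  rcases hσ with ⟨rfl, hτ⟩ | ⟨rfl, rfl⟩
  · have hτ' := abs_le.1 hτ
    have hc : Real.cos (Real.arccos (τ / 2)) = τ / 2 := Real.cos_arccos (by linarith [hτ'.1])
      (by linarith [hτ'.2])
    have h2 : A * A = (2 * Real.cos (Real.arccos (τ / 2))) • A - 1 := by
      rw [hc, mul_div_cancel₀ τ (two_ne_zero), ← h, one_smul, add_sub_cancel_right]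
    cases n with
    | zero =>
      simp only [pow_zero, Nat.cast_zero, zero_add, mul_one]
      linarith [norm_nonneg A]
    | succ n =>
      rw [pow_uu h2 n]
      have b1 := abs_uu (Real.arccos (τ / 2)) (n + 1)
      have b2 := abs_uu (Real.arccos (τ / 2)) n
      calc ‖uu (Real.arccos (τ / 2)) (n + 1) • A - uu (Real.arccos (τ / 2)) n • 1‖
          ≤ |uu (Real.arccos (τ / 2)) (n + 1)| * ‖A‖ + |uu (Real.arccos (τ / 2)) n| * ‖(1 : E2 →L[ℝ] E2)‖ := by
            refine (norm_sub_le _ _).trans ?_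
            rw [norm_smul, norm_smul, Real.norm_eq_abs, Real.norm_eq_abs]
        _ ≤ ((n + 1 : ℕ) : ℝ) * ‖A‖ + n * 1 := by gcongr
        _ ≤ (1 + ‖A‖) * (((n + 1 : ℕ) : ℝ) + 1) := by
            push_cast
            have := norm_nonneg A
            nlinarith
  · have h2 : A * A = 1 := by
      rw [zero_smul, neg_smul, one_smul, ← sub_eq_add_neg, sub_eq_zero] at h
      exact h
    have h3 : ‖A ^ n‖ ≤ 1 + ‖A‖ := by
      have key : ∀ m : ℕ, A ^ (2 * m) = 1 := fun m => by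
        rw [pow_mul, pow_two, h2, one_pow]
      rcases Nat.even_or_odd' n with ⟨m, rfl | rfl⟩
      · rw [key]
        linarith [norm_nonneg A]
      · rw [pow_succ, key, one_mul]
        linarith
    refine h3.trans ?_
    have h4 : 0 ≤ 1 + ‖A‖ := by positivity
    have h5 : (1 : ℝ) ≤ n + 1 := by
      have : (0 : ℝ) ≤ n := Nat.cast_nonneg n
      linarith
    nlinarith

/-- one-sided growth -/
theorem growth_one {M : E2 →L[ℝ] E2} (hd : M.det ≠ 0) (h : R1 M) :
    ∃ C : ℝ, 0 ≤ C ∧ ∀ n : ℕ, ‖M ^ n‖ ≤ C * (n + 1) * Real.sqrt |M.det| ^ n := by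
  set s := Real.sqrt |M.det| with hs
  have hs0 : 0 < s := Real.sqrt_pos.2 (abs_pos.2 hd)
  have hs2 : s ^ 2 = |M.det| := Real.sq_sqrt (abs_nonneg _)
  set A : E2 →L[ℝ] E2 := s⁻¹ • M with hA
  have hMA : M = s • A := by rw [hA, smul_smul, mul_inv_cancel₀ hs0.ne', one_smul]
  have h1 := cayley M
  have h2 : A * A + (M.det / s ^ 2) • (1 : E2 →L[ℝ] E2) = (tr2 M / s) • A := by
    have h3 := congrArg (fun B : E2 →L[ℝ] E2 => (s ^ 2)⁻¹ • B) h1
    simp only [smul_add, smul_smul] at h3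
    have e1 : A * A = (s ^ 2)⁻¹ • (M * M) := by
      rw [hA, smul_mul_smul_comm, ← mul_inv, ← pow_two]
    have e2 : (tr2 M / s) • A = ((s ^ 2)⁻¹ * tr2 M) • M := by
      rw [hA, smul_smul]
      congr 1
      field_simp
    rw [e1, e2, ← h3]
    congr 2
    rw [div_eq_inv_mul]
  refine ⟨1 + ‖A‖, by positivity, fun n => ?_⟩
  have h3 := growth_norm h2 (by
    rcases lt_or_gt_of_ne hd with hneg | hpos
    · right
      refine ⟨?_, ?_⟩
      · rw [hs2, abs_of_neg hneg, div_neg, div_self hd]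
      · rw [h.2 hneg, zero_div]
    · left
      refine ⟨?_, ?_⟩
      · rw [hs2, abs_of_pos hpos, div_self hd]
      · have h4 := h.1
        rw [← hs2] at h4
        rw [abs_div, abs_of_pos hs0, div_le_iff₀ hs0]
        exact abs_le_of_sq_le_sq (by nlinarith) (by positivity)) n
  rw [hMA, smul_pow, norm_smul, norm_pow, Real.norm_eq_abs, abs_of_pos hs0]
  have h5 : 0 ≤ s ^ n := by positivity
  nlinarith

theorem coe_pow (P : E2 ≃L[ℝ] E2) (n : ℕ) :
    ((P ^ n : E2 ≃L[ℝ] E2) : E2 →L[ℝ] E2) = (P : E2 →L[ℝ] E2) ^ n := by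
  induction n with
  | zero => rfl
  | succ n ih => rw [pow_succ, pow_succ, ← ih]; rfl

theorem det_ne (P : E2 ≃L[ℝ] E2) : (P : E2 →L[ℝ] E2).det ≠ 0 := by
  have h : (P : E2 →L[ℝ] E2) * (P.symm : E2 →L[ℝ] E2) = 1 := by
    ext v
    simp
  have h1 : (P : E2 →L[ℝ] E2).det * (P.symm : E2 →L[ℝ] E2).det = 1 := by
    rw [det_eq, det_eq, ← Matrix.det_mul, ← mx_mul, h, mx_one, Matrix.det_one]
  exact left_ne_zero_of_mul_eq_one h1

theorem det_symm (P : E2 ≃L[ℝ] E2) :
    (P : E2 →L[ℝ] E2).det * (P.symm : E2 →L[ℝ] E2).det = 1 := by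
  have h : (P : E2 →L[ℝ] E2) * (P.symm : E2 →L[ℝ] E2) = 1 := by
    ext v
    simp
  rw [det_eq, det_eq, ← Matrix.det_mul, ← mx_mul, h, mx_one, Matrix.det_one]

theorem R1_symm {P : E2 ≃L[ℝ] E2} (h : R1 (P : E2 →L[ℝ] E2)) :
    R1 (P.symm : E2 →L[ℝ] E2) := by
  refine (R1_iff_of_conj (F := 1) (N := (P.symm : E2 →L[ℝ] E2)) (M := (P : E2 →L[ℝ] E2))
    ?_ ?_).1 h
  · rw [det_eq, mx_one, Matrix.det_one]
    exact one_ne_zero
  · ext v
    simp

/-- **growth of the powers if the eigenvalues have equal moduli** -/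
theorem growth {P : E2 ≃L[ℝ] E2} (h : R1 (P : E2 →L[ℝ] E2)) : ∃ C : ℝ, 0 ≤ C ∧ ∀ n : ℕ,
    ‖((P ^ n : E2 ≃L[ℝ] E2) : E2 →L[ℝ] E2)‖ * ‖((P.symm ^ n : E2 ≃L[ℝ] E2) : E2 →L[ℝ] E2)‖
      ≤ C * (n + 1) ^ 2 := by
  obtain ⟨C, hC, h1⟩ := growth_one (det_ne P) h
  obtain ⟨C', hC', h2⟩ := growth_one (det_ne P.symm) (R1_symm h)
  refine ⟨C * C', mul_nonneg hC hC', fun n => ?_⟩
  rw [coe_pow, coe_pow]
  have e : Real.sqrt |(P : E2 →L[ℝ] E2).det| * Real.sqrt |(P.symm : E2 →L[ℝ] E2).det| = 1 := by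
    rw [← Real.sqrt_mul (abs_nonneg _), ← abs_mul, det_symm, abs_one, Real.sqrt_one]
  calc ‖(P : E2 →L[ℝ] E2) ^ n‖ * ‖(P.symm : E2 →L[ℝ] E2) ^ n‖
      ≤ (C * (n + 1) * Real.sqrt |(P : E2 →L[ℝ] E2).det| ^ n) *
        (C' * (n + 1) * Real.sqrt |(P.symm : E2 →L[ℝ] E2).det| ^ n) :=
        mul_le_mul (h1 n) (h2 n) (norm_nonneg _) (by positivity)
    _ = C * C' * (n + 1) ^ 2 * (Real.sqrt |(P : E2 →L[ℝ] E2).det| *
        Real.sqrt |(P.symm : E2 →L[ℝ] E2).det|) ^ n := by ring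
    _ = _ := by rw [e, one_pow, mul_one]

/-! ### the split case -/

theorem apply_mx (M : E2 →L[ℝ] E2) (v : E2) (i : Fin 2) :
    (M v) i = mx M i 0 * v 0 + mx M i 1 * v 1 := by
  conv_lhs => rw [H576.vec_eq v]
  rw [map_add, map_smul, map_smul, mx_apply, mx_apply]
  simp [bv]
  ring

theorem exists_eigen (M : E2 →L[ℝ] E2) {μ : ℝ} (h : μ ^ 2 - tr2 M * μ + M.det = 0) :
    ∃ v : E2, v ≠ 0 ∧ M v = μ • v := by
  rw [tr2_eq, det_eq, Matrix.trace_fin_two, Matrix.det_fin_two] at h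
  have h1 : (mx M - μ • (1 : Matrix (Fin 2) (Fin 2) ℝ)).det = 0 := by
    rw [Matrix.det_fin_two]
    simp
    linear_combination h
  obtain ⟨v, hv, hv'⟩ := Matrix.exists_mulVec_eq_zero_iff.2 h1
  refine ⟨(WithLp.toLp 2 v : E2), fun h2 => hv ?_, ?_⟩
  · funext i
    exact congrArg (fun w : E2 => w i) h2
  · ext i
    have h3 := congrFun hv' i
    rw [apply_mx]
    simp only [Matrix.mulVec, dotProduct, Fin.sum_univ_two, Matrix.sub_apply, Matrix.smul_apply,
      Matrix.one_apply, smul_eq_mul, Pi.zero_apply] at h3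
    fin_cases i
    · simp at h3 ⊢
      linear_combination h3
    · simp at h3 ⊢
      linear_combination h3

/-- **an eigenbasis if the eigenvalues have different moduli** -/
theorem split_basis {P : E2 ≃L[ℝ] E2} (h : ¬ R1 (P : E2 →L[ℝ] E2)) :
    ∃ (Q : E2 ≃L[ℝ] E2) (m : Fin 2 → ℝ), m 0 ≠ 0 ∧ m 1 ≠ 0 ∧ |m 0| ≠ |m 1| ∧
      ∀ i, (P : E2 →L[ℝ] E2) (Q (bv i)) = m i • Q (bv i) := by
  set M : E2 →L[ℝ] E2 := (P : E2 →L[ℝ] E2) with hM
  set t := tr2 M with ht
  set d := M.det with hd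
  have hd0 : d ≠ 0 := det_ne P
  have key : t ≠ 0 ∧ 0 < t ^ 2 - 4 * d := by
    unfold R1 at h
    rw [not_and_or] at h
    rcases h with h | h
    · push Not at h
      have h1 := le_abs_self d
      have h2 := abs_nonneg d
      refine ⟨fun h3 => ?_, by linarith⟩
      rw [← ht, h3] at h
      have : 0 < |d| := abs_pos.2 hd0
      norm_num at h
      linarith
    · rw [Classical.not_imp] at h
      refine ⟨h.2, ?_⟩
      have := sq_nonneg t
      linarith [h.1]
  obtain ⟨ht0, hdisc⟩ := key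
  set r := Real.sqrt (t ^ 2 - 4 * d) with hr
  have hr0 : 0 < r := Real.sqrt_pos.2 hdisc
  have hr2 : r ^ 2 = t ^ 2 - 4 * d := Real.sq_sqrt hdisc.le
  obtain ⟨v, hv, hv'⟩ := exists_eigen M (μ := (t + r) / 2) (by linear_combination hr2 / 4)
  obtain ⟨w, hw, hw'⟩ := exists_eigen M (μ := (t - r) / 2) (by linear_combination hr2 / 4)
  have hprod : (t + r) / 2 * ((t - r) / 2) = d := by linear_combination -(hr2 / 4)
  have hm0 : (t + r) / 2 ≠ 0 := fun h' => hd0 (by rw [← hprod, h', zero_mul])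
  have hm1 : (t - r) / 2 ≠ 0 := fun h' => hd0 (by rw [← hprod, h', mul_zero])
  have hne : |(t + r) / 2| ≠ |(t - r) / 2| := by
    intro h'
    have h2 := (sq_eq_sq_iff_abs_eq_abs _ _).2 h'
    have h3 : t * r = 0 := by linear_combination h2
    rcases mul_eq_zero.1 h3 with h4 | h4
    · exact ht0 h4
    · exact hr0.ne' h4
  have hinj : ∀ a b : ℝ, a • v + b • w = 0 → a = 0 ∧ b = 0 := by
    intro a b hab
    have h2 := congrArg M hab
    rw [map_add, map_smul, map_smul, hv', hw', map_zero] at h2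
    have h3 : (r * a) • v = 0 := by
      have h4 : a • ((t + r) / 2) • v + b • ((t - r) / 2) • w - ((t - r) / 2) • (a • v + b • w)
          = (r * a) • v := by
        module
      rw [← h4, h2, hab, smul_zero, sub_zero]
    have ha : a = 0 := by
      rcases smul_eq_zero.1 h3 with h4 | h4
      · exact (mul_eq_zero.1 h4).resolve_left hr0.ne'
      · exact absurd h4 hv
    rw [ha, zero_smul, zero_add] at hab
    exact ⟨ha, (smul_eq_zero.1 hab).resolve_right hw⟩
  let f : E2 →ₗ[ℝ] E2 :=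
    { toFun := fun x => x 0 • v + x 1 • w
      map_add' := fun x y => by simp only [PiLp.add_apply]; module
      map_smul' := fun c x => by simp only [PiLp.smul_apply, smul_eq_mul, RingHom.id_apply]; module }
  have hf : Function.Injective f := by
    rw [injective_iff_map_eq_zero]
    intro x hx
    obtain ⟨h1, h2⟩ := hinj _ _ hx
    ext i
    fin_cases i
    · exact h1
    · exact h2
  let Q : E2 ≃L[ℝ] E2 := (LinearEquiv.ofInjectiveEndo f hf).toContinuousLinearEquiv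
  have hQ : ∀ x : E2, Q x = x 0 • v + x 1 • w := fun x => rfl
  refine ⟨Q, fun i => if i = 0 then (t + r) / 2 else (t - r) / 2, by simpa using hm0,
    by simpa using hm1, by simpa using hne, fun i => ?_⟩
  rw [hQ]
  fin_cases i
  · simp [H576.bv_apply, hv']
  · simp [H576.bv_apply, hw']

end Vale.Agent.P207.N3.H728
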