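import Vale.Agent.P207.N3.H728.Rate
import Vale.Agent.P207.N3.H728.Growth
import Vale.Agent.P207.N3.H576.Wten
import Vale.Agent.P207.N3.H442.Hairy
import Vale.Agent.P207.N3.H732.Liv

/-!
# P207, N3, P12: the trace free tensor vanishes (global part)

`WF L`: an invariant continuous family of trace free tensors `V x η`, at the point `ep x`, in the
chart `e x`, with second point `η ≠ ep x`. If some closed orbit has two eigenvalues of different
modulus, and the boundary spheres carry no line field (`Fiber`), all `V x η` vanish.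
-/

open Set Filter Topology Metric
open scoped ContDiff

noncomputable section

namespace Vale.Agent.P207.N3.H728

open H576
open H147 (ep_cont ep_smul ep_φ ep_rot)

variable {Γ X B : Type} [Group Γ] [MetricSpace X] [ProperSpace X] [MulAction Γ X]
  [IsIsometricSMul Γ X] [TopologicalSpace B] [CompactSpace B] [T2Space B] [MulAction Γ B]
  [ContinuousConstSMul Γ B] {L : Leaf Γ X B}

/-! ### algebra of `Act` -/

theorem Act.comp {a b : E2 ≃L[ℝ] E2} {T T' T'' : T4} (h : Act a T T') (h' : Act b T' T'') :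
    Act (a * b) T T'' := by
  intro y y' w w'
  rw [h', h]
  rfl

theorem Act.one (T : T4) : Act 1 T T := fun _ _ _ _ => rfl

theorem Act.sub {a : E2 ≃L[ℝ] E2} {T T' S S' : T4} (h : Act a T T') (h' : Act a S S') :
    Act a (fun y y' w w' => T y y' w w' - 1 * S y y' w w')
      (fun y y' w w' => T' y y' w w' - 1 * S' y y' w w') := by
  intro y y' w w'
  simp only
  rw [h, h']

theorem Act.eq {a : E2 ≃L[ℝ] E2} {T T' T'' : T4} (h : Act a T T') (h' : Act a T T'') :
    T' = T'' := by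
  funext y y' w w'
  rw [h, h']

theorem norm_bv (i : Fin 2) : ‖bv i‖ = 1 := by simp [bv]

theorem abs_coord_le (v : E2) (i : Fin 2) : |v i| ≤ ‖v‖ := by
  have := PiLp.norm_apply_le v i
  rwa [Real.norm_eq_abs] at this

theorem Act.co_le {a : E2 ≃L[ℝ] E2} {T T' : T4} (h : Act a T T') (hT : IsT T) {ε : ℝ}
    (hε : ∀ k l i j, |co T k l i j| ≤ ε) (k l i j : Fin 2) :
    |co T' k l i j| ≤
      16 * (‖(a.symm : E2 →L[ℝ] E2)‖ * ‖(a : E2 →L[ℝ] E2)‖) ^ 2 * ε := by
  set A := ‖(a : E2 →L[ℝ] E2)‖ with hA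
  set A' := ‖(a.symm : E2 →L[ℝ] E2)‖ with hA'
  have hA0 : 0 ≤ A := norm_nonneg _
  have hA0' : 0 ≤ A' := norm_nonneg _
  have hε0 : 0 ≤ ε := (abs_nonneg _).trans (hε 0 0 0 0)
  have b1 : ∀ p q, |(a (bv p)) q| ≤ A := fun p q => by
    refine (abs_coord_le _ _).trans ?_
    have := (a : E2 →L[ℝ] E2).le_opNorm (bv p)
    rwa [norm_bv, mul_one] at this
  have b2 : ∀ p q, |(a.symm (bv p)) q| ≤ A' := fun p q => by
    refine (abs_coord_le _ _).trans ?_
    have := (a.symm : E2 →L[ℝ] E2).le_opNorm (bv p)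
    rwa [norm_bv, mul_one] at this
  rw [Act.co_eq h hT]
  have hterm : ∀ k' l' i' j' : Fin 2, |(a.symm (bv k')) k * (a.symm (bv l')) l
      * (a (bv i)) i' * (a (bv j)) j' * co T k' l' i' j'| ≤ A' * A' * A * A * ε := by
    intro k' l' i' j'
    rw [abs_mul, abs_mul, abs_mul, abs_mul]
    exact mul_le_mul (mul_le_mul (mul_le_mul (mul_le_mul (b2 _ _) (b2 _ _) (abs_nonneg _) hA0')
      (b1 _ _) (abs_nonneg _) (by positivity)) (b1 _ _) (abs_nonneg _) (by positivity))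
      (hε _ _ _ _) (abs_nonneg _) (by positivity)
  calc |∑ k', ∑ l', ∑ i', ∑ j', (a.symm (bv k')) k * (a.symm (bv l')) l
      * (a (bv i)) i' * (a (bv j)) j' * co T k' l' i' j'|
      ≤ ∑ _k' : Fin 2, ∑ _l' : Fin 2, ∑ _i' : Fin 2, ∑ _j' : Fin 2, A' * A' * A * A * ε := by
        refine (Finset.abs_sum_le_sum_abs _ _).trans (Finset.sum_le_sum fun k' _ => ?_)
        refine (Finset.abs_sum_le_sum_abs _ _).trans (Finset.sum_le_sum fun l' _ => ?_)
        refine (Finset.abs_sum_le_sum_abs _ _).trans (Finset.sum_le_sum fun i' _ => ?_)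
        exact (Finset.abs_sum_le_sum_abs _ _).trans (Finset.sum_le_sum fun j' _ => hterm _ _ _ _)
    _ = _ := by
        simp only [Finset.sum_const, Finset.card_univ, Fintype.card_fin, nsmul_eq_mul]
        push_cast
        ring

/-! ### the structure -/

variable (L) in
/-- A family of trace free tensors on the boundary. -/
structure WF where
  V : X → B → T4
  /-- the derivatives of the changes of charts at the base point -/
  J : X → X → E2 ≃L[ℝ] E2
  isT : ∀ x η, η ≠ L.ep x → IsT (V x η)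
  symm4 : ∀ x η, η ≠ L.ep x → Symm4 (V x η)
  trFree : ∀ x η, η ≠ L.ep x → TrFree (V x η)
  smul : ∀ (g : Γ) x η, η ≠ L.ep x → V (g • x) (g • η) = V x η
  J_eq : ∀ x y, L.ep x = L.ep y → (J x y : E2 →L[ℝ] E2) = fderiv ℝ (L.τ x y) 0
  act : ∀ x y η, L.ep x = L.ep y → η ≠ L.ep x → Act (J y x) (V x η) (V y η)
  cont : ∀ k l i j, ContinuousOn (fun p : X × B => co (V p.1 p.2) k l i j) {p | p.2 ≠ L.ep p.1}
  lip : ∀ x k l i j, ∃ C : ℝ, ∀ᶠ u in 𝓝 (0 : E2),
    |co (V x (L.e (L.flip x) u)) k l i j - co (V x (L.em x)) k l i j| ≤ C * ‖u‖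

namespace WF

variable (W : WF L)

/-- the tensor of a frame -/
def T (x : X) : T4 := W.V x (L.em x)

theorem ne' (x : X) : L.em x ≠ L.ep x := L.em_ne_ep x

theorem T_isT (x : X) : IsT (W.T x) := W.isT x _ (ne' x)

theorem T_cont (k l i j : Fin 2) : Continuous fun x => co (W.T x) k l i j :=
  (W.cont k l i j).comp_continuous (continuous_id.prodMk L.em_cont) fun x => ne' x

theorem T_smul (g : Γ) (x : X) : W.T (g • x) = W.T x := by
  unfold T
  rw [L.em_smul, W.smul _ _ _ (ne' x)]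

theorem T_act {x y : X} (h : L.ep x = L.ep y) (h' : L.em x = L.em y) :
    Act (W.J y x) (W.T x) (W.T y) := by
  unfold T
  rw [← h']
  exact W.act x y _ h (ne' x)

/-! ### closed orbits -/

theorem smul_ne (o : Orb L) {η : B} (hη : η ≠ o.pos) : o.β • η ≠ o.pos := fun h => by
  refine hη (smul_left_cancel o.β ?_)
  rw [h, o.smul_pos]

theorem step (o : Orb L) {η : B} (hη : η ≠ o.pos) :
    Act (W.J (o.β • o.x) o.x) (W.V o.x (o.β • η)) (W.V o.x η) := by
  have h1 : L.ep o.x = L.ep (o.β • o.x) := by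
    rw [ep_smul]
    exact o.smul_pos.symm
  have h2 := W.act o.x (o.β • o.x) (o.β • η) h1 (smul_ne o hη)
  rwa [W.smul _ _ _ hη] at h2

theorem inv_ne (o : Orb L) {η : B} (hη : η ≠ o.pos) (n : ℕ) : (o.β ^ n)⁻¹ • η ≠ o.pos := by
  intro h
  rw [inv_smul_eq_iff] at h
  exact hη (h.trans (H147.Ax.pow_smul_ep o.ax n))

theorem iter (o : Orb L) {η : B} (hη : η ≠ o.pos) (n : ℕ) :
    Act (W.J (o.β • o.x) o.x ^ n) (W.V o.x η) (W.V o.x ((o.β ^ n)⁻¹ • η)) := by
  induction n with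
  | zero =>
    simp only [pow_zero, inv_one, one_smul]
    exact Act.one _
  | succ n ih =>
    have h1 := W.step o (inv_ne o hη (n + 1))
    have h2 : o.β • (o.β ^ (n + 1))⁻¹ • η = (o.β ^ n)⁻¹ • η := by
      rw [pow_succ, mul_inv_rev, mul_smul, smul_inv_smul]
    rw [h2] at h1
    rw [pow_succ]
    exact Act.comp ih h1

theorem R1_J {o : Orb L} : (W.J (o.β • o.x) o.x : E2 →L[ℝ] E2) = fderiv ℝ o.ret 0 := by
  refine W.J_eq _ _ ?_
  rw [ep_smul]
  exact o.smul_pos

/-- **along an orbit with equal moduli the tensor is constant** -/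
theorem const_of_R1 (o : Orb L) (h : R1 (fderiv ℝ o.ret 0)) {η : B} (hη : η ≠ o.pos) :
    W.V o.x η = W.T o.x := by
  set P := W.J (o.β • o.x) o.x with hP
  have hR : R1 (P : E2 →L[ℝ] E2) := by rw [hP, W.R1_J]; exact h
  obtain ⟨C, hC, hgrow⟩ := growth hR
  -- the axis of the inverse
  have hax := H147.Ax.flip o.ax
  have hem : L.em (L.flip o.x) = o.pos := by
    rw [← L.ep_flip]; rfl
  obtain ⟨C1, u, hu⟩ := exists_rate hax (η := η) (by rw [hem]; exact hη)
  have hu' : ∀ᶠ n : ℕ in atTop, (o.β ^ n)⁻¹ • η = L.e (L.flip o.x) (u n) ∧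
      ‖u n‖ ≤ C1 * Real.exp (-(L.χ * o.l * n)) := by
    filter_upwards [hu] with n hn
    rw [← inv_pow]
    exact ⟨hn.2.1, hn.2.2⟩
  have hrate0 : Tendsto (fun n : ℕ => C1 * Real.exp (-(L.χ * o.l * n))) atTop (𝓝 0) := by
    have h1 : Tendsto (fun n : ℕ => L.χ * o.l * (n : ℝ)) atTop atTop :=
      tendsto_natCast_atTop_atTop.const_mul_atTop (mul_pos L.χ_pos o.ax.pos)
    have h2 := (Real.tendsto_exp_neg_atTop_nhds_zero.comp h1).const_mul C1
    rwa [mul_zero] at h2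
  have hu0 : Tendsto u atTop (𝓝 0) := by
    rw [tendsto_zero_iff_norm_tendsto_zero]
    exact squeeze_zero' (Eventually.of_forall fun _ => norm_nonneg _)
      (hu'.mono fun n hn => hn.2) hrate0
  choose C2 hC2 using fun q : (Fin 2 × Fin 2) × (Fin 2 × Fin 2) =>
    W.lip o.x q.1.1 q.1.2 q.2.1 q.2.2
  set M : ℝ := ∑ q, |C2 q| with hM
  have hM2 : ∀ q, |C2 q| ≤ M := fun q =>
    Finset.single_le_sum (f := fun q => |C2 q|) (fun _ _ => abs_nonneg _) (Finset.mem_univ q)
  have hM0 : 0 ≤ M := Finset.sum_nonneg fun _ _ => abs_nonneg _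
  -- the differences
  set D : ℕ → T4 := fun n y y' w w' => W.V o.x ((o.β ^ n)⁻¹ • η) y y' w w' -
    1 * W.T o.x y y' w w' with hD
  have hDT : ∀ n, IsT (D n) := fun n => (W.isT _ _ (inv_ne o hη n)).sub_mul (W.T_isT _) 1
  have hDact : ∀ n, Act (P ^ n) (D 0) (D n) := by
    intro n
    have h1 := W.iter o hη n
    have h2 := W.iter o (η := L.em o.x) (L.em_ne_ep o.x) n
    rw [H147.Ax.inv_pow_smul_em o.ax] at h2
    have h3 := Act.sub h1 h2
    have h4 : D 0 = fun y y' w w' => W.V o.x η y y' w w' - 1 * W.V o.x (L.em o.x) y y' w w' := by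
      simp only [hD, pow_zero, inv_one, one_smul]
      rfl
    rw [h4]
    exact h3
  have hDsmall : ∀ᶠ n : ℕ in atTop, ∀ k l i j,
      |co (D n) k l i j| ≤ M * (C1 * Real.exp (-(L.χ * o.l * n))) := by
    have hall : ∀ᶠ n : ℕ in atTop, ∀ q : (Fin 2 × Fin 2) × (Fin 2 × Fin 2),
        |co (W.V o.x (L.e (L.flip o.x) (u n))) q.1.1 q.1.2 q.2.1 q.2.2 -
          co (W.V o.x (L.em o.x)) q.1.1 q.1.2 q.2.1 q.2.2| ≤ C2 q * ‖u n‖ :=
      eventually_all.2 fun q => hu0.eventually (hC2 q)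
    filter_upwards [hall, hu'] with n hn hn' k l i j
    have h1 := hn ((k, l), (i, j))
    simp only at h1
    rw [← hn'.1] at h1
    have h2 : co (D n) k l i j = co (W.V o.x ((o.β ^ n)⁻¹ • η)) k l i j -
        co (W.V o.x (L.em o.x)) k l i j := by
      simp only [hD, co, T, one_mul]
    rw [h2]
    refine h1.trans ?_
    calc C2 ((k, l), (i, j)) * ‖u n‖ ≤ |C2 ((k, l), (i, j))| * ‖u n‖ :=
          mul_le_mul_of_nonneg_right (le_abs_self _) (norm_nonneg _)
      _ ≤ M * (C1 * Real.exp (-(L.χ * o.l * n))) :=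
          mul_le_mul (hM2 _) hn'.2 (norm_nonneg _) hM0
  -- pull back to time zero
  have hzero : ∀ k l i j, co (D 0) k l i j = 0 := by
    intro k l i j
    have hbound : ∀ᶠ n : ℕ in atTop, |co (D 0) k l i j| ≤
        16 * (C * (n + 1) ^ 2) ^ 2 * (M * (C1 * Real.exp (-(L.χ * o.l * n)))) := by
      filter_upwards [hDsmall] with n hn
      have h1 := (hDact n).symm
      have h2 := Act.co_le h1 (hDT n) hn k l i j
      have h3 : ‖(((P ^ n).symm).symm : E2 →L[ℝ] E2)‖ * ‖((P ^ n).symm : E2 →L[ℝ] E2)‖ ≤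
          C * (n + 1) ^ 2 := by
        have h4 := hgrow n
        have h5 : (P ^ n).symm = P.symm ^ n := by
          change (P ^ n)⁻¹ = (P⁻¹) ^ n
          rw [inv_pow]
        rw [h5]
        have h6 : (P.symm ^ n).symm = P ^ n := by rw [← h5]; rfl
        rw [h6]
        exact h4
      refine h2.trans ?_
      have h7 : 0 ≤ M * (C1 * Real.exp (-(L.χ * o.l * n))) := (abs_nonneg _).trans (hn 0 0 0 0)
      have h8 : 0 ≤ ‖(((P ^ n).symm).symm : E2 →L[ℝ] E2)‖ * ‖((P ^ n).symm : E2 →L[ℝ] E2)‖ := by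
        positivity
      gcongr
    have hlim : Tendsto (fun n : ℕ => 16 * (C * ((n : ℝ) + 1) ^ 2) ^ 2 *
        (M * (C1 * Real.exp (-(L.χ * o.l * n))))) atTop (𝓝 0) := by
      have hc : 0 < L.χ * o.l := mul_pos L.χ_pos o.ax.pos
      have h1 := Real.tendsto_pow_mul_exp_neg_atTop_nhds_zero 4
      have h2 : Tendsto (fun n : ℕ => L.χ * o.l * ((n : ℝ) + 1)) atTop atTop :=
        (tendsto_atTop_add_const_right _ _ tendsto_natCast_atTop_atTop).const_mul_atTop hc
      have h3 := (h1.comp h2).const_mul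
        (16 * C ^ 2 * M * C1 * Real.exp (L.χ * o.l) * (((L.χ * o.l) ^ 4)⁻¹))
      rw [mul_zero] at h3
      refine h3.congr fun n => ?_
      simp only [Function.comp_apply]
      have h4 : Real.exp (-(L.χ * o.l * n)) =
          Real.exp (L.χ * o.l) * Real.exp (-(L.χ * o.l * (n + 1))) := by
        rw [← Real.exp_add]
        ring_nf
      rw [h4]
      have h5 : ((L.χ * o.l) ^ 4)⁻¹ * (L.χ * o.l) ^ 4 = 1 := inv_mul_cancel₀ (pow_pos hc 4).ne'
      linear_combination (16 * C ^ 2 * M * C1 * Real.exp (L.χ * o.l) * ((n : ℝ) + 1) ^ 4 *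
        Real.exp (-(L.χ * o.l * (n + 1)))) * h5
    have h9 := ge_of_tendsto hlim hbound
    exact abs_nonpos_iff.1 h9
  have h0 : W.V o.x η = W.T o.x := by
    refine (W.isT _ _ hη).ext (W.T_isT _) fun k l i j => ?_
    have h1 := hzero k l i j
    simp only [hD, co, one_mul, pow_zero, inv_one, one_smul] at h1
    exact sub_eq_zero.1 h1
  exact h0

theorem dense_ep (ξ : B) : Dense {z : X | ∃ g : Γ, L.ep z = g • ξ} := by
  have h2 : Dense {z : X | ∃ g : Γ, L.em z = g • ξ} := by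
    rw [dense_iff_inter_open]
    rintro S hS ⟨w, hw⟩
    obtain ⟨Q, hQ, hwQ, hlift⟩ := H732.exists_nhds_pair L hS hw
    obtain ⟨U, hU, U', hU', hUU⟩ := mem_nhds_prod_iff.1 (hQ.mem_nhds hwQ)
    obtain ⟨_, ⟨g, rfl⟩, hg⟩ := (L.dense_orbit ξ).inter_nhds_nonempty hU
    obtain ⟨z, hzS, hz1, -⟩ := hlift (g • ξ, L.ep w) (hUU ⟨hg, mem_of_mem_nhds hU'⟩)
    exact ⟨z, hzS, g, hz1⟩
  rw [dense_iff_inter_open] at h2 ⊢
  rintro S hS ⟨w, hw⟩
  obtain ⟨z, hz, g, hg⟩ := h2 (L.flip ⁻¹' S) (hS.preimage L.flip_cont)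
    ⟨L.flip w, by rw [mem_preimage, L.flip_flip]; exact hw⟩
  exact ⟨L.flip z, hz, g, by rw [L.ep_flip, L.flip_flip, hg]⟩

/-- if some orbit has equal moduli, all tensors are constant along the leaves -/
theorem const_of_exists (o : Orb L) (h : R1 (fderiv ℝ o.ret 0)) {y : X} {η η' : B}
    (hη : η ≠ L.ep y) (hη' : η' ≠ L.ep y) : W.V y η = W.V y η' := by
  -- on translates of the orbit
  have h1 : ∀ (z : X) (g : Γ), L.ep z = g • o.pos → ∀ ζ, ζ ≠ L.ep z →
      Act (W.J z (g • o.x)) (W.T o.x) (W.V z ζ) := by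
    intro z g hz ζ hζ
    have e1 : L.ep (g • o.x) = L.ep z := by rw [hz, ep_smul]; rfl
    have e2 : W.V (g • o.x) ζ = W.T o.x := by
      have h2 : g⁻¹ • ζ ≠ o.pos := by
        intro h3
        rw [inv_smul_eq_iff] at h3
        exact hζ (h3.trans hz.symm)
      have h3 := W.smul g o.x (g⁻¹ • ζ) h2
      rw [smul_inv_smul] at h3
      rw [h3, W.const_of_R1 o h h2]
    have h4 := W.act (g • o.x) z ζ e1 (by rw [e1]; exact hζ)
    rwa [e2] at h4
  refine (W.isT _ _ hη).ext (W.isT _ _ hη') fun k l i j => ?_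
  set O : Set X := {z | η ≠ L.ep z ∧ η' ≠ L.ep z} with hO
  have hOo : IsOpen O :=
    (isOpen_ne_fun continuous_const (ep_cont L)).inter (isOpen_ne_fun continuous_const (ep_cont L))
  have hdense : Dense {z : X | ∃ g : Γ, L.ep z = g • o.pos} := dense_ep o.pos
  have hc : ∀ ζ : B, ContinuousOn (fun z => co (W.V z ζ) k l i j) {z | ζ ≠ L.ep z} := fun ζ =>
    (W.cont k l i j).comp (continuous_id.prodMk continuous_const).continuousOn fun z hz => hz
  have h5 := H732.eqOn_of_dense hOo hdense (f := fun z => co (W.V z η) k l i j)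
    (g := fun z => co (W.V z η') k l i j)
    ((hc η).mono fun z hz => hz.1) ((hc η').mono fun z hz => hz.2) (by
      rintro z hz ⟨g, hg⟩
      have h6 := h1 z g hg η hz.1
      have h7 := h1 z g hg η' hz.2
      simp only [Act.eq h6 h7])
  exact h5 y ⟨hη, hη'⟩

/-! ### orbits with different moduli -/

theorem isMod_orb (o : Orb L) (h : ¬ R1 (fderiv ℝ o.ret 0)) : ∃ c, IsMod c (W.T o.x) := by
  set P := W.J (o.β • o.x) o.x with hP
  have hR : ¬ R1 (P : E2 →L[ℝ] E2) := by rw [hP, W.R1_J]; exact h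
  obtain ⟨Q, m, h0, h1, hne, hQ⟩ := split_basis hR
  have hact : Act P (W.T o.x) (W.T o.x) := by
    have h2 := W.step o (η := L.em o.x) (L.em_ne_ep o.x)
    have h3 : o.β • L.em o.x = L.em o.x := o.smul_neg
    rw [h3] at h2
    exact h2
  refine isMod_of_inv (W.T_isT _) (W.symm4 _ _ (ne' _)) (W.trFree _ _ (ne' _)) Q m h0 h1 hne
    (P : E2 →L[ℝ] E2) hQ fun y y' w w' => ?_
  rw [hact (y ∘L (P : E2 →L[ℝ] E2)) (y' ∘L (P : E2 →L[ℝ] E2)) w w']
  have e : ∀ z : D2, (z ∘L (P : E2 →L[ℝ] E2)) ∘L (P.symm : E2 →L[ℝ] E2) = z := fun z => by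
    ext v
    simp
  rw [e, e]
  rfl

/-! ### the quadratic invariant -/

/-- the invariant of a frame -/
def K (x : X) : ℝ := kap (W.T x)

theorem K_cont : Continuous W.K := by
  unfold K kap
  exact continuous_finsetSum _ fun k _ => continuous_finsetSum _ fun l _ =>
    continuous_finsetSum _ fun i _ => continuous_finsetSum _ fun j _ =>
      (W.T_cont _ _ _ _).mul (W.T_cont _ _ _ _)

theorem K_const (x y : X) : W.K x = W.K y := by
  refine H732.invariant_const L W.K_cont (fun g x => ?_) (fun a x => ?_) (fun t x => ?_) x y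
  · unfold K
    rw [W.T_smul]
  · exact kap_act (W.T_act (ep_rot L a x).symm (L.em_rot a x).symm) (W.T_isT _)
  · exact kap_act (W.T_act (ep_φ L t x).symm (L.em_φ t x).symm) (W.T_isT _)

/-- on a dense set of frames the tensor is `± c` times the model -/
theorem exists_dense (o : Orb L) (h : ¬ R1 (fderiv ℝ o.ret 0)) :
    ∃ (c : ℝ) (S : Set X), 0 ≤ c ∧ Dense S ∧ ∀ x ∈ S, ∃ c', |c'| = c ∧ IsMod c' (W.T x) := by
  obtain ⟨c₀, hc₀⟩ := W.isMod_orb o h
  by_cases hB : ∃ o' : Orb L, R1 (fderiv ℝ o'.ret 0)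
  · obtain ⟨o', ho'⟩ := hB
    refine ⟨|c₀|, {z : X | ∃ g : Γ, L.ep z = g • o.pos}, abs_nonneg _, dense_ep o.pos, ?_⟩
    rintro x ⟨g, hg⟩
    refine ⟨c₀, rfl, ?_⟩
    have e1 : L.ep (g • o.x) = L.ep x := by rw [hg, ep_smul]; rfl
    have e2 : g • o.neg ≠ L.ep x := by
      rw [hg]
      exact fun h' => o.neg_ne_pos (smul_left_cancel g h')
    have e3 : W.V (g • o.x) (g • o.neg) = W.T o.x := W.smul g o.x o.neg o.neg_ne_pos
    have e4 := W.act (g • o.x) x (g • o.neg) e1 (by rw [e1]; exact e2)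
    rw [e3] at e4
    have e5 : W.V x (g • o.neg) = W.T x := W.const_of_exists o' ho' e2 (ne' x)
    rw [e5] at e4
    exact e4.isMod hc₀
  · refine ⟨|c₀|, {x | ∃ (θ : Γ) (l : ℝ) (a : O2), L.IsAxis θ x l a}, abs_nonneg _,
      dense_axes L, ?_⟩
    rintro x ⟨θ, l, a, hx⟩
    obtain ⟨c', hc'⟩ := W.isMod_orb ⟨θ, x, l, a, hx⟩ (fun h' => hB ⟨_, h'⟩)
    refine ⟨c', ?_, hc'⟩
    have h1 : W.K x = W.K o.x := W.K_const _ _
    have h2 : W.K x = 6 * c' ^ 2 := hc'.kap
    have h3 : W.K o.x = 6 * c₀ ^ 2 := hc₀.kap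
    have h4 : c' ^ 2 = c₀ ^ 2 := by linarith
    exact (sq_eq_sq_iff_abs_eq_abs _ _).1 h4

end WF

end Vale.Agent.P207.N3.H728
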