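import Vale.Agent.P207.N3.H828.SmC
import Vale.Agent.P207.N3.H728.Weyl

/-!
# P207, line N3, P12: `D(ξ, γ⁺) → -∞` as `ξ → γ⁺`
-/

noncomputable section

open Set Filter Topology Metric
open scoped ContDiff

set_option maxSynthPendingDepth 3
set_option linter.unusedSectionVars false

namespace Vale.Agent.P207.N3.H728

open H576 H828

variable {Γ X B : Type} [Group Γ] [MetricSpace X] [ProperSpace X] [MulAction Γ X]
  [IsIsometricSMul Γ X] [TopologicalSpace B] [CompactSpace B] [T2Space B] [MulAction Γ B]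
  [ContinuousConstSMul Γ B] {L : Leaf Γ X B}

theorem e_cOn (L : Leaf Γ X B) (x : X) : ContinuousOn (L.e x) (closedBall (0 : E2) 3) := by
  have h1 : ContinuousOn (fun u : E2 => ((x, u) : X × E2)) (closedBall (0 : E2) 3) := by fun_prop
  exact L.e_cont.comp h1 fun u hu => ⟨mem_univ _, hu⟩

theorem isOpen_e (L : Leaf Γ X B) (x : X) {O : Set E2} (hO : IsOpen O)
    (hO3 : O ⊆ ball (0 : E2) 3) : IsOpen (L.e x '' O) := by
  have h1 : L.e x '' O = (L.e x '' ball (0 : E2) 3) \ (L.e x '' (closedBall (0 : E2) 3 \ O)) := by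
    ext η
    constructor
    · rintro ⟨u, hu, rfl⟩
      refine ⟨⟨u, hO3 hu, rfl⟩, ?_⟩
      rintro ⟨v, hv, he⟩
      have := L.e_inj x hv.1 (ball_subset_closedBall (hO3 hu)) he
      exact hv.2 (this ▸ hu)
    · rintro ⟨⟨u, hu, rfl⟩, hn⟩
      by_contra hcon
      exact hn ⟨u, ⟨ball_subset_closedBall hu, fun h => hcon ⟨u, h, rfl⟩⟩, rfl⟩
  rw [h1]
  exact (H646.isOpen_image L x).sdiff ((((isCompact_closedBall _ _).diff hO).image_of_continuousOn
    ((e_cOn L x).mono sdiff_subset)).isClosed)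

/-- `γ^{-n} ξ → γ^-` for `ξ ≠ γ^+` -/
theorem tendsto_inv_pow (o : Orb L) {ξ : B} (hξ : ξ ≠ o.pos) :
    Tendsto (fun n : ℕ => (o.β ^ n)⁻¹ • ξ) atTop (𝓝 o.neg) := by
  have hax := H147.Ax.flip o.ax
  have hem : L.em (L.flip o.x) = o.pos := by
    rw [← L.ep_flip]; rfl
  obtain ⟨C1, u, hu⟩ := exists_rate hax (η := ξ) (by rw [hem]; exact hξ)
  have hrate0 : Tendsto (fun n : ℕ => C1 * Real.exp (-(L.χ * o.l * n))) atTop (𝓝 0) := by
    have h1 : Tendsto (fun n : ℕ => L.χ * o.l * (n : ℝ)) atTop atTop :=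
      tendsto_natCast_atTop_atTop.const_mul_atTop (mul_pos L.χ_pos o.ax.pos)
    have h2 := (Real.tendsto_exp_neg_atTop_nhds_zero.comp h1).const_mul C1
    rwa [mul_zero] at h2
  have hu0 : Tendsto u atTop (𝓝 0) := by
    rw [tendsto_zero_iff_norm_tendsto_zero]
    exact squeeze_zero' (Eventually.of_forall fun _ => norm_nonneg _)
      (hu.mono fun n hn => hn.2.2) hrate0
  have hc : ContinuousAt (L.e (L.flip o.x)) 0 :=
    (e_cOn L _).continuousAt (closedBall_mem_nhds _ (by norm_num))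
  have h1 := hc.tendsto.comp hu0
  have h2 : L.e (L.flip o.x) 0 = o.neg := by
    rw [L.e_zero, L.ep_flip, L.flip_flip]; rfl
  rw [h2] at h1
  refine h1.congr' ?_
  filter_upwards [hu] with n hn
  rw [Function.comp_apply, ← hn.2.1, inv_pow]

variable [MeasurableSpace B] [BorelSpace B] {A : Area L}

/-- the cocycle at the attracting fixed point -/
theorem cg_pos (o : Orb L) : cg L o.β o.pos = -o.l := by
  have h1 : L.em (L.flip o.x) = o.pos := by
    rw [← L.ep_flip]; rfl
  have h2 := cg_eq (L := L) o.β (L.flip o.x)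
  rw [h1] at h2
  rw [h2, ← L.flip_smul, o.smul_x, L.flip_φ, L.flip_rot, L.lv_φ, L.lv_rot]
  ring

/-- **`D` tends to `-∞`** at the attracting fixed point of a closed orbit -/
theorem tendsto_D (H : SmB L A.D) (o : Orb L) :
    Tendsto (fun a => A.D (L.e o.x a) (L.e o.x 0)) (𝓝[≠] (0 : E2)) atBot := by
  set z := o.x with hz
  have e0 : L.e z 0 = o.pos := L.e_zero z
  have hl := o.ax.pos
  have h03 : (0 : E2) ∈ ball (0 : E2) 3 := mem_ball_self (by norm_num)
  -- the function
  set F : B → ℝ := fun ξ => A.D ξ o.pos with hF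
  have hstep : ∀ ξ, ξ ≠ o.pos → F (o.β • ξ) = F ξ + cg L o.β ξ - o.l := by
    intro ξ hξ
    have h1 := D_smul A o.β hξ
    rw [o.smul_pos, cg_pos] at h1
    simp only [hF]
    rw [h1]
    ring
  -- the cocycle is negative near the fixed point
  obtain ⟨r, hr0, hr3, hr⟩ : ∃ r : ℝ, 0 < r ∧ r < 3 ∧
      ∀ u ∈ closedBall (0 : E2) r, cg L o.β (L.e z u) ≤ 0 := by
    have h1 : ContinuousAt (fun p => cg L o.β (L.e z p)) 0 :=
      (H.sm_cg o.β z h03).diff.continuousAt
    have h2 : cg L o.β (L.e z 0) < 0 := by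
      rw [e0, cg_pos]
      linarith
    have h3 : ∀ᶠ u in 𝓝 (0 : E2), cg L o.β (L.e z u) < 0 :=
      h1.eventually_lt continuousAt_const h2
    obtain ⟨δ, hδ, hb⟩ := Metric.eventually_nhds_iff_ball.1 h3
    refine ⟨min (δ / 2) 1, lt_min (by linarith) one_pos, lt_of_le_of_lt (min_le_right _ _)
      (by norm_num), fun u hu => (hb u ?_).le⟩
    rw [mem_closedBall] at hu
    rw [mem_ball]
    exact lt_of_le_of_lt (hu.trans (min_le_left _ _)) (by linarith)
  set W : Set B := L.e z '' closedBall (0 : E2) r with hW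
  set V0 : Set B := L.e z '' ball (0 : E2) r with hV0
  have hr3' : closedBall (0 : E2) r ⊆ closedBall (0 : E2) 3 := closedBall_subset_closedBall hr3.le
  have hr3b : closedBall (0 : E2) r ⊆ ball (0 : E2) 3 := closedBall_subset_ball hr3
  have hWc : IsCompact W := (isCompact_closedBall _ _).image_of_continuousOn
    ((e_cOn L z).mono hr3')
  have hV0o : IsOpen V0 := isOpen_e L z isOpen_ball (ball_subset_ball hr3.le)
  have hV0W : V0 ⊆ W := image_mono ball_subset_closedBall
  have hposV : o.pos ∈ V0 := ⟨0, mem_ball_self hr0, e0⟩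
  -- the annulus
  set S : Set E2 := closedBall (0 : E2) r ∩ (L.e z) ⁻¹' ((fun η : B => o.β • η) '' V0)ᶜ with hS
  have hSc : IsCompact S := by
    have h1 : IsClosed ((fun η : B => o.β • η) '' V0)ᶜ :=
      ((Homeomorph.smul o.β).isOpenMap V0 hV0o).isClosed_compl
    exact (isCompact_closedBall (0 : E2) r).of_isClosed_subset
      (((e_cOn L z).mono hr3').preimage_isClosed_of_isClosed isClosed_closedBall h1)
      inter_subset_left
  have hGc : ContinuousOn (fun u => F (L.e z u)) S := by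
    intro u hu
    have hu0 : u ≠ 0 := by
      rintro rfl
      refine hu.2 ⟨o.pos, hposV, ?_⟩
      change o.β • o.pos = L.e z 0
      rw [o.smul_pos, e0]
    have hne : L.e z u ≠ L.e z 0 := fun h =>
      hu0 (L.e_inj z (hr3' hu.1) (ball_subset_closedBall h03) h)
    have h1 := (H.sm (mem_od (hr3b hu.1) h03 hne)).left.diff.continuousAt
    have h2 : (fun p : E2 => ff L A.D ((z, z), (u, (0 : E2))).1 (p, (0 : E2))) =
        fun p => F (L.e z p) := by
      funext p
      simp only [ff, hF]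
      rw [e0]
    simp only at h1 h2
    rw [h2] at h1
    exact h1.continuousWithinAt
  obtain ⟨C, hC⟩ : ∃ C, ∀ u ∈ S, F (L.e z u) ≤ C := by
    obtain ⟨C, hC⟩ := hSc.bddAbove_image hGc
    exact ⟨C, fun u hu => hC (mem_image_of_mem _ hu)⟩
  -- the time of exit
  have hexit : ∀ m : ℕ, ∀ ξ ∈ W, ξ ≠ o.pos → (o.β ^ m)⁻¹ • ξ ∉ W → F ξ ≤ C := by
    intro m
    induction m with
    | zero =>
      intro ξ h1 _ h2
      rw [pow_zero, inv_one, one_smul] at h2
      exact absurd h1 h2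
    | succ m ih =>
      intro ξ h1 h2 h3
      by_cases h4 : ξ ∈ (fun η : B => o.β • η) '' V0
      · obtain ⟨ζ, hζ, rfl⟩ := h4
        simp only at h2 h3 ⊢
        have hne : ζ ≠ o.pos := by
          rintro rfl
          exact h2 o.smul_pos
        have e1 : (o.β ^ (m + 1))⁻¹ • o.β • ζ = (o.β ^ m)⁻¹ • ζ := by
          rw [pow_succ', mul_inv_rev, mul_smul, inv_smul_smul]
        rw [e1] at h3
        have h5 := ih ζ (hV0W hζ) hne h3
        rw [hstep ζ hne]
        obtain ⟨u, hu, rfl⟩ := hζ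
        have := hr u (ball_subset_closedBall hu)
        linarith
      · obtain ⟨u, hu, rfl⟩ := h1
        exact hC u ⟨hu, h4⟩
  have hall : ∀ ξ ∈ W, ξ ≠ o.pos → F ξ ≤ C := by
    intro ξ h1 h2
    have h3 : o.neg ∈ Wᶜ := by
      rintro ⟨u, hu, he⟩
      exact L.e_ne z u (hr3' hu) he
    obtain ⟨m, hm⟩ := ((tendsto_inv_pow o h2).eventually
      (hWc.isClosed.isOpen_compl.mem_nhds h3)).exists
    exact hexit m ξ h1 h2 hm
  -- smaller and smaller neighbourhoods
  have hn : ∀ n : ℕ, ∃ V : Set B, IsOpen V ∧ o.pos ∈ V ∧ V ⊆ V0 ∧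
      ∀ ξ ∈ V, ξ ≠ o.pos → F ξ ≤ C - n * o.l := by
    intro n
    induction n with
    | zero =>
      refine ⟨V0, hV0o, hposV, Subset.rfl, fun ξ h1 h2 => ?_⟩
      have := hall ξ (hV0W h1) h2
      simpa using this
    | succ n ih =>
      obtain ⟨V, hV, hpV, hVV, hVF⟩ := ih
      refine ⟨(fun η : B => o.β • η) '' V ∩ V0, ((Homeomorph.smul o.β).isOpenMap V hV).inter hV0o,
        ⟨⟨o.pos, hpV, o.smul_pos⟩, hposV⟩, inter_subset_right, ?_⟩
      rintro ξ ⟨⟨ζ, hζ, rfl⟩, -⟩ h2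
      simp only at h2 ⊢
      have hne : ζ ≠ o.pos := by
        rintro rfl
        exact h2 o.smul_pos
      have h5 := hVF ζ hζ hne
      rw [hstep ζ hne]
      obtain ⟨u, hu, rfl⟩ := hVV hζ
      have := hr u (ball_subset_closedBall hu)
      push_cast
      linarith
  rw [tendsto_atBot]
  intro b
  obtain ⟨n, hn1⟩ := exists_nat_ge ((C - b) / o.l)
  obtain ⟨V, hV, hpV, hVV, hVF⟩ := hn n
  have hcz : ContinuousAt (L.e z) 0 :=
    (e_cOn L _).continuousAt (closedBall_mem_nhds _ (by norm_num))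
  have hev : ∀ᶠ a in 𝓝 (0 : E2), L.e z a ∈ V := hcz.eventually (by
    rw [e0]
    exact hV.mem_nhds hpV)
  filter_upwards [mem_nhdsWithin_of_mem_nhds hev, self_mem_nhdsWithin,
    mem_nhdsWithin_of_mem_nhds (ball_mem_nhds (0 : E2) (by norm_num : (0 : ℝ) < 3))] with a h1 h2 h3
  have h4 : L.e z a ≠ o.pos := by
    rw [← e0]
    exact fun h => h2 (L.e_inj z (ball_subset_closedBall h3) (ball_subset_closedBall h03) h)
  have h5 := hVF _ h1 h4
  rw [e0]
  refine h5.trans ?_
  rw [div_le_iff₀ hl] at hn1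
  linarith

end Vale.Agent.P207.N3.H728
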