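import Vale.Agent.P207.N3.H728.GeoGrp
import Vale.Agent.P207.N3.H728.Grom

/-!
# P207, N3: points going to infinity along a line, seen from the base point

`H.pr o y` is the boundary point in the direction of `y`. Along a line `c`: the direction of `c s`
tends to the end point, `dist o (c s) - s` tends to `-lp`, and the direction away from `o` at
`c s` becomes the direction of the line.
-/

open Set Filter Topology Metric Real
open Vale.Agent.P207.N3.H709

noncomputable section

namespace Vale.Agent.P207.N3.H728.Had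

open Vale.Agent.P207.N3.H728

variable {Y : Type*} [MetricSpace Y] (H : Had Y) {o : Y}

/-- the boundary point in the direction of `y` -/
def pr (o y : Y) : Bd o := ⟨H.through o y, H.through_zero o y⟩

theorem pr_ln (o y : Y) : (H.pr o y).ln = H.through o y := rfl

/-- the direction from the line and the direction from `o` -/
theorem dir_close (c r : Ln Y) {s l D u : ℝ} (hr : r 0 = o) (hl : l = dist o (c s))
    (hrl : r l = c s) (hD : dist o (c 0) ≤ D) (hu : 0 ≤ u) (hus : u ≤ s - D) :
    dist (c (s - u)) (r (l - u)) ≤ H.κ (2 * D) * exp (-(H.a * (s - D - u))) := by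
  have ha := H.a_pos
  have hD0 : 0 ≤ D := dist_nonneg.trans hD
  have hs : 0 ≤ s := by linarith
  obtain ⟨h1, h2⟩ := start c r hr hs hl hD
  have h3 := (H.back c r hrl hu (hus.trans h1)).1
  have h4 := H.le_κ dist_nonneg h3
  have h5 : sinh (H.a * dist (c (s - min s l)) (r (l - min s l)) / 2) ≤
      sinh (H.a * (2 * D) / 2) := by
    rw [sinh_le_sinh]
    have := mul_le_mul_of_nonneg_left h2 ha.le
    linarith
  have h6 : exp (-(H.a * (min s l - u))) ≤ exp (-(H.a * (s - D - u))) := by
    rw [exp_le_exp]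
    have := mul_le_mul_of_nonneg_left h1 ha.le
    linarith
  have h7 : 0 ≤ sinh (H.a * (2 * D) / 2) := sinh_nonneg_iff.2 (by positivity)
  unfold κ
  calc dist (c (s - u)) (r (l - u))
      ≤ 2 / H.a * (exp (-(H.a * (min s l - u))) *
        sinh (H.a * dist (c (s - min s l)) (r (l - min s l)) / 2)) := h4
    _ ≤ 2 / H.a * (exp (-(H.a * (s - D - u))) * sinh (H.a * (2 * D) / 2)) := by
        refine mul_le_mul_of_nonneg_left ?_ (by positivity)
        exact mul_le_mul h6 h5 (sinh_nonneg_iff.2 (by positivity)) (exp_pos _).le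
    _ = _ := by ring

variable [ProperSpace Y]

theorem bus_base_eq (c : Ln Y) : bus c o = -H.lvl o c.flip := by
  rw [H.bus_eq o c o, bus_base, zero_sub]

/-- the distance to the base point along a line -/
theorem dist_base_rate (c : Ln Y) {s D : ℝ} (hs : 0 ≤ s) (hD : dist o (c 0) ≤ D) :
    |dist o (c s) - s + H.lvl o c.flip| ≤ H.ρ D * exp (-(H.a * s)) := by
  have h := H.bus_rate c o hs hD
  rwa [H.bus_base_eq, sub_neg_eq_add] at h

/-- the direction of `c s` is close to the end point of `c` -/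
theorem pr_close (c : Ln Y) {s D t : ℝ} (hD : dist o (c 0) ≤ D) (ht : 0 ≤ t) (hts : t ≤ s - D) :
    dist ((H.pr o (c s)).ln t) ((H.ep o c).ln t) ≤
      H.κ (6 * D) * exp (-(H.a * (s - D - t))) := by
  have ha := H.a_pos
  have hD0 : 0 ≤ D := dist_nonneg.trans hD
  have hs : 0 ≤ s := by linarith
  set l := dist o (c s) with hl
  have h1 := abs_len c o hs
  rw [← hl] at h1
  have h1' := abs_le.1 h1
  have h2 : dist (H.through o (c s) l) (H.ray o c l) ≤ 6 * D := by
    rw [hl, H.through_dist]
    calc dist (c s) (H.ray o c (dist o (c s)))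
        ≤ dist (c s) (H.ray o c s) + dist (H.ray o c s) (H.ray o c (dist o (c s))) :=
          dist_triangle _ _ _
      _ ≤ 5 * D + D := by
          refine add_le_add ((H.ray_le o c hs).trans (by linarith)) ?_
          rw [Ln.dist_eq, abs_sub_comm]
          exact h1.trans hD
      _ = 6 * D := by ring
  have h3 := H.hinge_κ (H.through o (c s)) (H.ray o c)
    (by rw [H.through_zero, H.ray_zero]) ht (show t ≤ l by linarith [h1'.1]) h2
  refine h3.trans (mul_le_mul_of_nonneg_left ?_ (H.κ_nonneg (by linarith)))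
  rw [exp_le_exp]
  have : H.a * (s - D - t) ≤ H.a * (l - t) := mul_le_mul_of_nonneg_left (by linarith [h1'.1]) ha.le
  linarith

theorem tendsto_pr {ι : Type*} {F : Filter ι} {c : ι → Ln Y} {s : ι → ℝ} {c₀ : Ln Y}
    (hc : Tendsto c F (𝓝 c₀)) (hs : Tendsto s F atTop) :
    Tendsto (fun i => H.pr o (c i (s i))) F (𝓝 (H.ep o c₀)) := by
  have ha := H.a_pos
  set D := dist o (c₀ 0) + 1 with hD
  have hcD : ∀ᶠ i in F, dist o (c i 0) ≤ D := by
    have h1 : Tendsto (fun i => dist o (c i 0)) F (𝓝 (dist o (c₀ 0))) :=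
      tendsto_const_nhds.dist (((Ln.continuous_eval 0).tendsto c₀).comp hc)
    filter_upwards [h1.eventually_lt_const (show dist o (c₀ 0) < D by linarith)] with i hi
      using hi.le
  have h2 : Tendsto (fun i => dist ((H.pr o (c i (s i))).ln 1) ((H.ep o (c i)).ln 1)) F
      (𝓝 0) := by
    have h3 : Tendsto (fun i => H.κ (6 * D) * exp (-(H.a * (s i - D - 1)))) F (𝓝 0) := by
      have h4 : Tendsto (fun i => H.a * (s i - D - 1)) F atTop := by
        have : (fun i => H.a * (s i - D - 1)) = fun i => H.a * (s i + (-D - 1)) := by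
          funext i; ring
        rw [this]
        exact (tendsto_atTop_add_const_right _ _ hs).const_mul_atTop ha
      have h5 := (tendsto_exp_neg_atTop_nhds_zero.comp h4).const_mul (H.κ (6 * D))
      rwa [mul_zero] at h5
    refine squeeze_zero' (Eventually.of_forall fun _ => dist_nonneg) ?_ h3
    filter_upwards [hcD, hs.eventually_ge_atTop (D + 1)] with i hi hi'
    exact H.pr_close (c i) hi zero_le_one (by linarith)
  have h6 : Tendsto (fun i => (H.ep o (c i)).ln 1) F (𝓝 ((H.ep o c₀).ln 1)) :=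
    (((Ln.continuous_eval 1).comp Bd.continuous_ln).tendsto _).comp
      (((H.continuous_ep o).tendsto c₀).comp hc)
  have h7 : Tendsto (fun i => (H.pr o (c i (s i))).ln 1) F (𝓝 ((H.ep o c₀).ln 1)) := by
    rw [tendsto_iff_dist_tendsto_zero] at h6 ⊢
    have h8 := h2.add h6
    rw [add_zero] at h8
    exact squeeze_zero (fun _ => dist_nonneg) (fun i => dist_triangle _ _ _) h8
  -- evaluation at `1` is a closed embedding of the compact boundary
  have hemb : IsClosedEmbedding (fun ξ : Bd o => ξ.ln 1) := by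
    refine Continuous.isClosedEmbedding ((Ln.continuous_eval 1).comp Bd.continuous_ln) ?_
    intro ξ η h
    exact Bd.ln_inj (H.line_unique one_pos (by rw [ξ.ln_zero, η.ln_zero]) h)
  exact hemb.isEmbedding.tendsto_nhds_iff.2 h7

end Vale.Agent.P207.N3.H728.Had

namespace Vale.Agent.P207.N3.H76.Geo

open Vale.Agent.P207.N3.H728

variable {Γ X Y : Type} [Group Γ] [MetricSpace X] [ProperSpace X] [MetricSpace Y]
  [ProperSpace Y] [MulAction Γ X] [MulAction Γ Y] [IsIsometricSMul Γ X] [IsIsometricSMul Γ Y]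
  (G : Geo Γ X Y) (o : Y)

/-- frames at one point whose lines are close in the past are close up to a rotation -/
theorem near_of_back {ε : ℝ} (hε : 0 < ε) : ∃ δ > 0, ∀ x y : X, G.ft y = G.ft x →
    dist (G.p x (-1)) (G.p y (-1)) < δ → ∃ a, dist (G.rot a y) x < ε := by
  obtain ⟨K, hK, hcov⟩ := G.cocompact
  set A : Set (X × X) := {q | q.1 ∈ K ∧ G.ft q.2 = G.ft q.1 ∧
    ∀ a, ε ≤ dist (G.rot a q.2) q.1} with hA
  have hAc : IsCompact A := by
    have h1 : IsCompact (K ×ˢ (G.ft ⁻¹' (G.ft '' K))) :=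
      hK.prod (G.ft_proper _ (hK.image G.ft_cont))
    refine h1.of_isClosed_subset ?_ ?_
    · have e : A = (Prod.fst ⁻¹' K) ∩ ({q : X × X | G.ft q.2 = G.ft q.1} ∩
          ⋂ a, {q : X × X | ε ≤ dist (G.rot a q.2) q.1}) := by
        ext q
        simp [hA]
      rw [e]
      refine (hK.isClosed.preimage continuous_fst).inter (IsClosed.inter ?_ ?_)
      · exact isClosed_eq (G.ft_cont.comp continuous_snd) (G.ft_cont.comp continuous_fst)
      · exact isClosed_iInter fun a => isClosed_le continuous_const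
          (((G.rot_cont a).comp continuous_snd).dist continuous_fst)
    · rintro ⟨x, y⟩ ⟨h1, h2, -⟩
      exact ⟨h1, x, h1, h2.symm⟩
  have hcont : Continuous fun q : X × X => dist (G.p q.1 (-1)) (G.p q.2 (-1)) :=
    ((Ln.continuous_eval (-1)).comp (G.p_cont.comp continuous_fst)).dist
      ((Ln.continuous_eval (-1)).comp (G.p_cont.comp continuous_snd))
  have hmain : ∃ δ > 0, ∀ q ∈ A, δ ≤ dist (G.p q.1 (-1)) (G.p q.2 (-1)) := by
    rcases A.eq_empty_or_nonempty with h | h
    · exact ⟨1, one_pos, fun q hq => by rw [h] at hq; exact absurd hq (notMem_empty q)⟩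
    · obtain ⟨q, hq, hmin⟩ := hAc.exists_isMinOn h hcont.continuousOn
      refine ⟨dist (G.p q.1 (-1)) (G.p q.2 (-1)), ?_, fun q' hq' => hmin hq'⟩
      refine dist_pos.2 fun heq => ?_
      obtain ⟨h1, h2, h3⟩ := hq
      have h4 : (G.p q.2).flip = (G.p q.1).flip := by
        refine G.had.line_unique one_pos ?_ ?_
        · rw [Ln.flip_apply, Ln.flip_apply, neg_zero, G.p_zero, G.p_zero, h2]
        · rw [Ln.flip_apply, Ln.flip_apply, heq]
      have h5 : G.p q.2 = G.p q.1 := by
        rw [← Ln.flip_flip (G.p q.2), h4, Ln.flip_flip]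
      obtain ⟨a, ha⟩ := G.p_eq_iff.1 h5
      have h6 := h3 a
      rw [← ha, dist_self] at h6
      linarith
  obtain ⟨δ, hδ, hmin⟩ := hmain
  refine ⟨δ, hδ, fun x y hxy hd => ?_⟩
  obtain ⟨g, hg⟩ := hcov x
  by_contra hcon
  push Not at hcon
  have h1 : (g • x, g • y) ∈ A := by
    refine ⟨hg, ?_, fun a => ?_⟩
    · change G.ft (g • y) = G.ft (g • x)
      rw [G.ft_smul, G.ft_smul, hxy]
    · change ε ≤ dist (G.rot a (g • y)) (g • x)
      rw [G.rot_smul, dist_smul]
      exact hcon a
  have h2 := hmin _ h1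
  change δ ≤ dist (G.p (g • x) (-1)) (G.p (g • y) (-1)) at h2
  rw [G.p_smul, G.p_smul, smul_ln_apply, smul_ln_apply, dist_smul] at h2
  linarith

/-- a frame pointing away from `o` -/
theorem exists_dir (q : Y) : ∃ y : X, G.ft y = q ∧ G.p y (-(dist o q)) = o := by
  obtain ⟨y, hy⟩ := G.p_surj ((G.had.through o q).φ (dist o q))
  refine ⟨y, ?_, ?_⟩
  · rw [← G.p_zero, hy, Ln.φ_apply, zero_add, G.had.through_dist]
  · rw [hy, Ln.φ_apply, neg_add_cancel, G.had.through_zero]

variable {o}

theorem p_dir {q : Y} (hq : o ≠ q) {y : X} (h1 : G.ft y = q) (h2 : G.p y (-(dist o q)) = o) :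
    (G.p y).φ (-(dist o q)) = G.had.through o q := by
  refine (G.had.through_eq hq ?_ ?_).symm
  · rw [Ln.φ_apply, zero_add, h2]
  · rw [Ln.φ_apply, add_neg_cancel, G.p_zero, h1]

theorem ep_dir {q : Y} (hq : o ≠ q) {y : X} (h1 : G.ft y = q) (h2 : G.p y (-(dist o q)) = o) :
    G.ep o y = G.had.pr o q := by
  have h3 := G.p_dir hq h1 h2
  have h4 : G.had.ep o ((G.p y).φ (-(dist o q))) = G.had.ep o (G.had.pr o q).ln := by
    rw [h3, Had.pr_ln]
  rw [G.had.ep_φ, G.had.ep_self] at h4
  exact h4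

variable (o)

/-- the direction away from `o`, along a frame flow line -/
theorem dir_close {ε : ℝ} (hε : 0 < ε) (R : ℝ) : ∃ S : ℝ, 0 ≤ S ∧ ∀ x : X,
    dist o (G.ft x) ≤ R → ∀ s ≥ S, ∀ y : X, G.ft y = G.ft (G.φ s x) →
    G.p y (-(dist o (G.ft y))) = o → ∃ a, dist (G.rot a y) (G.φ s x) < ε := by
  have ha := G.had.a_pos
  obtain ⟨δ, hδ, h⟩ := G.near_of_back hε
  have h1 : Tendsto (fun s : ℝ => G.had.κ (2 * R) * exp (-(G.had.a * (s - R - 1)))) atTop
      (𝓝 0) := by
    have h4 : Tendsto (fun s : ℝ => G.had.a * (s - R - 1)) atTop atTop := by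
      have : (fun s : ℝ => G.had.a * (s - R - 1)) = fun s => G.had.a * (s + (-R - 1)) := by
        funext i; ring
      rw [this]
      exact (tendsto_atTop_add_const_right _ _ tendsto_id).const_mul_atTop ha
    have h5 := (tendsto_exp_neg_atTop_nhds_zero.comp h4).const_mul (G.had.κ (2 * R))
    rwa [mul_zero] at h5
  obtain ⟨S, hS⟩ := eventually_atTop.1 (h1.eventually_lt_const hδ)
  refine ⟨max (max S 0) (R + 1), (le_max_right _ _).trans (le_max_left _ _),
    fun x hx s hs y hy hyo => ?_⟩
  have hs1 : S ≤ s := ((le_max_left _ _).trans (le_max_left _ _)).trans hs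
  have hs2 : R + 1 ≤ s := (le_max_right _ _).trans hs
  refine h _ y hy ?_
  have hxs : G.p x s = G.ft (G.φ s x) := G.p_ft x s
  have h2 := G.had.dir_close (o := o) (G.p x) ((G.p y).φ (-(dist o (G.ft y))))
    (s := s) (l := dist o (G.ft y)) (D := R) (u := 1)
    (by rw [Ln.φ_apply, zero_add, hyo]) (by rw [hxs, hy])
    (by rw [Ln.φ_apply, add_neg_cancel, G.p_zero, hxs, hy])
    (by rw [G.p_zero]; exact hx) zero_le_one (by linarith)
  have h3 : (G.p y).φ (-(dist o (G.ft y))) (dist o (G.ft y) - 1) = G.p y (-1) := by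
    rw [Ln.φ_apply]; congr 1; ring
  have h4 : G.p (G.φ s x) (-1) = G.p x (s - 1) := by
    rw [G.p_φ, Ln.φ_apply]; congr 1; ring
  rw [h3] at h2
  rw [h4]
  exact h2.trans_lt (hS s hs1)

end Vale.Agent.P207.N3.H76.Geo
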