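import Mathlib

/-!
# P207, N3: Hadamard spaces of curvature `≤ -a²` (metric core of the boundary at infinity)

`Had Y`: a proper metric space in which any two points lie on a line (isometric embedding of `ℝ`),
lines do not branch, and triangles satisfy the comparison inequality of curvature `≤ -a²`.
-/

open Set Filter Topology Metric Real

noncomputable section

namespace Vale.Agent.P207.N3.H728

/-- Hadamard space of curvature `≤ -a²` whose lines do not branch -/
structure Had (Y : Type*) [MetricSpace Y] where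
  a : ℝ
  a_pos : 0 < a
  line : ∀ x y : Y, ∃ c : ℝ → Y, Isometry c ∧ c 0 = x ∧ c (dist x y) = y
  nonbranch : ∀ c c' : ℝ → Y, Isometry c → Isometry c' → ∀ T : ℝ, 0 < T → c 0 = c' 0 →
    c T = c' T → c = c'
  cat : ∀ c : ℝ → Y, Isometry c → ∀ (x : Y) (s L : ℝ), 0 ≤ s → s ≤ L →
    sinh (a * L) * cosh (a * dist x (c s)) ≤
      sinh (a * (L - s)) * cosh (a * dist x (c 0)) + sinh (a * s) * cosh (a * dist x (c L))

/-- lines -/
@[ext] structure Ln (Y : Type*) [MetricSpace Y] where
  toFun : ℝ → Y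
  iso : Isometry toFun

variable {Y : Type*} [MetricSpace Y]

namespace Ln

instance : CoeFun (Ln Y) (fun _ => ℝ → Y) := ⟨Ln.toFun⟩

instance : TopologicalSpace (Ln Y) := TopologicalSpace.induced Ln.toFun inferInstance

theorem isInducing : IsInducing (Ln.toFun : Ln Y → ℝ → Y) := ⟨rfl⟩

theorem toFun_injective : Function.Injective (Ln.toFun : Ln Y → ℝ → Y) := fun c c' h => by
  cases c; cases c'; cases h; rfl

instance : T2Space (Ln Y) :=
  T2Space.of_injective_continuous toFun_injective isInducing.continuous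

theorem ext' {c c' : Ln Y} (h : ∀ t, c t = c' t) : c = c' := Ln.ext (funext h)

theorem dist_eq (c : Ln Y) (s t : ℝ) : dist (c s) (c t) = |s - t| := by
  rw [c.2.dist_eq, Real.dist_eq]

theorem continuous_eval (t : ℝ) : Continuous fun c : Ln Y => c t :=
  (continuous_apply t).comp isInducing.continuous

theorem continuous_eval₂ : Continuous fun p : Ln Y × ℝ => p.1 p.2 := by
  rw [continuous_iff_continuousAt]
  rintro ⟨c, t⟩
  rw [ContinuousAt, tendsto_iff_dist_tendsto_zero]
  have h1 : Tendsto (fun p : Ln Y × ℝ => |p.2 - t| + dist (p.1 t) (c t)) (𝓝 (c, t)) (𝓝 0) := by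
    have h2 : Continuous fun p : Ln Y × ℝ => |p.2 - t| + dist (p.1 t) (c t) :=
      ((continuous_snd.sub continuous_const).abs).add
        (((continuous_eval t).comp continuous_fst).dist continuous_const)
    have h3 := h2.tendsto (c, t)
    simpa using h3
  refine squeeze_zero (fun _ => dist_nonneg) (fun p => ?_) h1
  calc dist (p.1 p.2) (c t) ≤ dist (p.1 p.2) (p.1 t) + dist (p.1 t) (c t) := dist_triangle _ _ _
    _ = _ := by rw [dist_eq]

theorem continuous_mk {Z : Type*} [TopologicalSpace Z] {f : Z → Ln Y}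
    (h : ∀ t, Continuous fun z => f z t) : Continuous f :=
  isInducing.continuous_iff.2 (continuous_pi h)

/-- the flow -/
def φ (t : ℝ) (c : Ln Y) : Ln Y := ⟨fun s => c (s + t), c.2.comp (isometry_add_right t)⟩

@[simp] theorem φ_apply (t : ℝ) (c : Ln Y) (s : ℝ) : φ t c s = c (s + t) := rfl

theorem φ_zero (c : Ln Y) : φ 0 c = c := ext' fun t => by simp

theorem φ_add (s t : ℝ) (c : Ln Y) : φ (s + t) c = φ s (φ t c) := ext' fun u => by
  simp only [φ_apply, add_assoc]

theorem continuous_φ : Continuous fun p : ℝ × Ln Y => φ p.1 p.2 :=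
  continuous_mk fun _ => continuous_eval₂.comp
    (continuous_snd.prodMk (continuous_const.add continuous_fst))

/-- the reversed line -/
def flip (c : Ln Y) : Ln Y := ⟨fun s => c (-s), c.2.comp (LinearIsometryEquiv.neg ℝ).isometry⟩

@[simp] theorem flip_apply (c : Ln Y) (s : ℝ) : flip c s = c (-s) := rfl

@[simp] theorem flip_flip (c : Ln Y) : flip (flip c) = c := ext' fun t => by simp

theorem flip_φ (t : ℝ) (c : Ln Y) : flip (φ t c) = φ (-t) (flip c) := ext' fun u => by
  simp only [φ_apply, flip_apply, neg_add, neg_neg]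

theorem continuous_flip : Continuous (flip : Ln Y → Ln Y) :=
  continuous_mk fun t => continuous_eval (-t)

/-- lines which start in a compact set -/
theorem isCompact_eval [ProperSpace Y] {K : Set Y} (hK : IsCompact K) :
    IsCompact {c : Ln Y | c 0 ∈ K} := by
  have h1 : IsCompact {c : ℝ → Y | Isometry c ∧ c 0 ∈ K} := by
    have h2 : IsCompact (Set.pi univ fun t : ℝ => cthickening |t| K) :=
      isCompact_univ_pi fun t => hK.cthickening
    refine h2.of_isClosed_subset ?_ ?_
    · have e : {c : ℝ → Y | Isometry c ∧ c 0 ∈ K} =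
          (⋂ (s : ℝ) (t : ℝ), {c : ℝ → Y | dist (c s) (c t) = dist s t}) ∩ {c | c 0 ∈ K} := by
        ext c
        rw [mem_inter_iff, mem_iInter]
        refine and_congr ?_ Iff.rfl
        change Isometry c ↔ _
        rw [isometry_iff_dist_eq]
        refine forall_congr' fun s => ?_
        rw [mem_iInter]
        rfl
      rw [e]
      refine IsClosed.inter (isClosed_iInter fun s => isClosed_iInter fun t => ?_) ?_
      · exact isClosed_eq ((continuous_apply s).dist (continuous_apply t)) continuous_const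
      · exact hK.isClosed.preimage (continuous_apply 0)
    · rintro c ⟨h3, h4⟩ t -
      refine mem_cthickening_of_dist_le (c t) (c 0) _ K h4 ?_
      rw [h3.dist_eq, Real.dist_eq, sub_zero]
  have h2 : {c : Ln Y | c 0 ∈ K} = Ln.toFun ⁻¹' {c : ℝ → Y | Isometry c ∧ c 0 ∈ K} := by
    ext c
    exact ⟨fun h => ⟨c.2, h⟩, fun h => h.2⟩
  rw [h2, isInducing.isCompact_preimage_iff]
  · exact h1
  · rintro c ⟨h3, -⟩
    exact ⟨⟨c, h3⟩, rfl⟩

theorem isCompact_of_closed [ProperSpace Y] {S : Set (Ln Y)} (hS : IsClosed S) {K : Set Y}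
    (hK : IsCompact K) (h : ∀ c ∈ S, c 0 ∈ K) : IsCompact S :=
  (isCompact_eval hK).of_isClosed_subset hS h

/-- continuity from compactness and identification of limits -/
theorem continuousAt_of_unique [ProperSpace Y] {Z : Type*} [TopologicalSpace Z] {f : Z → Ln Y}
    {z : Z} {x : Y} {R : ℝ} (hb : ∀ᶠ z' in 𝓝 z, dist (f z' 0) x ≤ R)
    (hu : ∀ (U : Ultrafilter Z) (c : Ln Y), (U : Filter Z) ≤ 𝓝 z → Tendsto f U (𝓝 c) → c = f z) :
    ContinuousAt f z := by
  rw [ContinuousAt, tendsto_iff_ultrafilter]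
  intro U hU
  have h1 : ∀ᶠ z' in (U : Filter Z), f z' ∈ {c : Ln Y | c 0 ∈ closedBall x R} := by
    filter_upwards [hU hb] with z' h
    exact h
  have h2 : (U.map f : Filter (Ln Y)) ≤ 𝓟 {c : Ln Y | c 0 ∈ closedBall x R} := by
    rw [le_principal_iff]
    exact h1
  obtain ⟨c, -, hc⟩ := (isCompact_eval (isCompact_closedBall x R)).ultrafilter_le_nhds
    (U.map f) h2
  have h3 : Tendsto f U (𝓝 c) := hc
  rw [← hu U c hU h3]
  exact h3

end Ln

namespace Had

variable (H : Had Y)

omit [MetricSpace Y] in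
theorem cosh_sub_one (x : ℝ) : cosh x - 1 = 2 * sinh (x / 2) ^ 2 := by
  have h : cosh x = cosh (x / 2) ^ 2 + sinh (x / 2) ^ 2 := by
    rw [← cosh_two_mul]
    congr 1
    ring
  have h1 := cosh_sq (x / 2)
  rw [h, h1]
  ring

include H

/-- **comparison for two lines which start at one point** -/
theorem hinge (c c' : Ln Y) (h0 : c 0 = c' 0) {t l : ℝ} (ht : 0 ≤ t) (htl : t ≤ l) :
    sinh (H.a * l) ^ 2 * (cosh (H.a * dist (c t) (c' t)) - 1) ≤
      sinh (H.a * t) ^ 2 * (cosh (H.a * dist (c l) (c' l)) - 1) := by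
  set a := H.a with ha
  have hapos : 0 < a := H.a_pos
  have h1 := H.cat c c.2 (c' l) t l ht htl
  have h2 := H.cat c' c'.2 (c t) t l ht htl
  rw [← ha] at h1 h2
  have e1 : dist (c' l) (c 0) = l := by
    rw [h0, Ln.dist_eq, sub_zero, abs_of_nonneg (ht.trans htl)]
  have e2 : dist (c t) (c' 0) = t := by
    rw [← h0, Ln.dist_eq, sub_zero, abs_of_nonneg ht]
  rw [e1] at h1
  rw [e2, dist_comm (c t) (c' l)] at h2
  rw [dist_comm (c' l) (c l)] at h1
  have s1 : 0 ≤ sinh (a * t) := sinh_nonneg_iff.2 (mul_nonneg hapos.le ht)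
  have s2 : 0 ≤ sinh (a * l) := sinh_nonneg_iff.2 (mul_nonneg hapos.le (ht.trans htl))
  have i1 : sinh (a * (l - t)) * cosh (a * l) = sinh (a * l) * cosh (a * (l - t)) -
      sinh (a * t) := by
    have := Real.sinh_sub (a * l) (a * (l - t))
    have e : a * l - a * (l - t) = a * t := by ring
    rw [e] at this
    linarith
  have i2 : sinh (a * (l - t)) * cosh (a * t) + sinh (a * t) * cosh (a * (l - t)) =
      sinh (a * l) := by
    have := Real.sinh_add (a * (l - t)) (a * t)
    have e : a * (l - t) + a * t = a * l := by ring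
    rw [e] at this
    linarith
  set P := cosh (a * dist (c t) (c' t))
  set Q := cosh (a * dist (c' l) (c t))
  set R := cosh (a * dist (c l) (c' l))
  set S := sinh (a * l)
  set σ := sinh (a * t)
  -- h1 : S * Q ≤ sinh (a (l-t)) cosh (a l) + σ R ; h2 : S P ≤ sinh (a (l-t)) cosh (a t) + σ Q
  have h3 : S * (S * P) ≤ S * (sinh (a * (l - t)) * cosh (a * t)) + σ * (S * Q) := by
    have := mul_le_mul_of_nonneg_left h2 s2
    linarith
  have h4 : σ * (S * Q) ≤ σ * (S * cosh (a * (l - t)) - σ + σ * R) := by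
    refine mul_le_mul_of_nonneg_left ?_ s1
    linarith
  nlinarith [h3, h4, i2]

/-- the same with the half distances -/
theorem hinge' (c c' : Ln Y) (h0 : c 0 = c' 0) {t l : ℝ} (ht : 0 ≤ t) (htl : t ≤ l) :
    sinh (H.a * l) * sinh (H.a * dist (c t) (c' t) / 2) ≤
      sinh (H.a * t) * sinh (H.a * dist (c l) (c' l) / 2) := by
  have h := H.hinge c c' h0 ht htl
  rw [cosh_sub_one, cosh_sub_one] at h
  have ha := H.a_pos
  have s1 : 0 ≤ sinh (H.a * t) := sinh_nonneg_iff.2 (mul_nonneg ha.le ht)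
  have s2 : 0 ≤ sinh (H.a * l) := sinh_nonneg_iff.2 (mul_nonneg ha.le (ht.trans htl))
  have s3 : ∀ x y : Y, 0 ≤ sinh (H.a * dist x y / 2) := fun x y =>
    sinh_nonneg_iff.2 (by positivity)
  refine le_of_sq_le_sq ?_ (mul_nonneg s1 (s3 _ _))
  nlinarith

/-- uniqueness of segments -/
theorem seg_unique {c c' : Ln Y} {L : ℝ} (hL : 0 ≤ L) (h0 : c 0 = c' 0) (h1 : c L = c' L) {t : ℝ}
    (ht : 0 ≤ t) (htL : t ≤ L) : c t = c' t := by
  rcases hL.eq_or_lt with rfl | hL'
  · rw [le_antisymm htL ht]; exact h0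
  have h := H.hinge' c c' h0 ht htL
  rw [h1, dist_self, mul_zero, zero_div, sinh_zero, mul_zero] at h
  have s2 : 0 < sinh (H.a * L) := sinh_pos_iff.2 (mul_pos H.a_pos hL')
  have h2 : sinh (H.a * dist (c t) (c' t) / 2) ≤ 0 := by
    by_contra hcon
    push Not at hcon
    exact absurd h (not_le.2 (mul_pos s2 hcon))
  have h3 : H.a * dist (c t) (c' t) / 2 ≤ 0 := sinh_nonpos_iff.1 h2
  have h4 : dist (c t) (c' t) ≤ 0 := by
    by_contra hcon
    push Not at hcon
    have := mul_pos H.a_pos hcon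
    linarith
  exact dist_le_zero.1 h4

theorem line_unique {c c' : Ln Y} {L : ℝ} (hL : 0 < L) (h0 : c 0 = c' 0) (h1 : c L = c' L) :
    c = c' := Ln.ext (H.nonbranch c c' c.2 c'.2 L hL h0 h1)




/-- a line through two points -/
def through (x y : Y) : Ln Y := ⟨(H.line x y).choose, (H.line x y).choose_spec.1⟩

@[simp] theorem through_zero (x y : Y) : H.through x y 0 = x := (H.line x y).choose_spec.2.1

@[simp] theorem through_dist (x y : Y) : H.through x y (dist x y) = y :=
  (H.line x y).choose_spec.2.2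

theorem through_eq {c : Ln Y} {x y : Y} (hxy : x ≠ y) (h0 : c 0 = x) (h1 : c (dist x y) = y) :
    H.through x y = c :=
  H.line_unique (dist_pos.2 hxy) (by rw [through_zero, h0]) (by rw [through_dist, h1])

theorem through_self {c : Ln Y} {s t : ℝ} (hst : s < t) : H.through (c s) (c t) = Ln.φ s c := by
  have hd : dist (c s) (c t) = t - s := by
    rw [Ln.dist_eq, abs_sub_comm, abs_of_pos (sub_pos.2 hst)]
  refine H.through_eq (dist_pos.1 (by rw [hd]; linarith)) ?_ ?_
  · rw [Ln.φ_apply, zero_add]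
  · rw [Ln.φ_apply, hd, sub_add_cancel]

end Had

end Vale.Agent.P207.N3.H728
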