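import Vale.Agent.P207.N3.H728.ToA
import Vale.Agent.P207.N3.H728.Pairs
import Vale.Agent.P207.N3.H646.TauB
import Vale.Agent.P207.N3.Top.Ret

/-!
# P207, N3: exponential rate of the North-South dynamics in the chart of the axis
-/

open Set Filter Topology Metric
open scoped ContDiff

noncomputable section

namespace Vale.Agent.P207.N3.H728

variable {Γ X B : Type} [Group Γ] [MetricSpace X] [ProperSpace X] [MulAction Γ X]
  [IsIsometricSMul Γ X] [TopologicalSpace B] [CompactSpace B] [T2Space B] [MulAction Γ B]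
  [ContinuousConstSMul Γ B] {L : Leaf Γ X B}

/-- `θ^n • η → ep z` exponentially in the chart `e z`, if `θ` has the axis `z` -/
theorem exists_rate {θ : Γ} {z : X} {l : ℝ} {a : O2} (h : L.IsAxis θ z l a) {η : B}
    (hη : η ≠ L.em z) : ∃ (C : ℝ) (u : ℕ → E2), ∀ᶠ n : ℕ in atTop,
      u n ∈ ball (0 : E2) 3 ∧ θ ^ n • η = L.e z (u n) ∧
        ‖u n‖ ≤ C * Real.exp (-(L.χ * l * n)) := by
  obtain ⟨T, v, hv, hvη⟩ := ((toA L).exhaust z η hη).exists
  change L.e (L.φ (-T) z) v = η at hvη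
  obtain ⟨C, hC, hpm⟩ := H646.pm_small L
  have ht : Tendsto (fun n : ℕ => (n : ℝ) * l - T) atTop atTop := by
    have h3 : Tendsto (fun n : ℕ => (n : ℝ) * l) atTop atTop :=
      tendsto_natCast_atTop_atTop.atTop_mul_const h.pos
    simpa [sub_eq_add_neg] using tendsto_atTop_add_const_right atTop (-T) h3
  refine ⟨C * Real.exp (L.χ * T),
    fun n => H646.pm L ((n : ℝ) * l - T) (L.φ ((n : ℝ) * l - T) z) ((a ^ n) v), ?_⟩
  filter_upwards [ht.eventually_ge_atTop L.t1] with n hn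
  have hav : (a ^ n) v ∈ ball (0 : E2) 3 := by
    rw [mem_ball_zero_iff, LinearIsometryEquiv.norm_map]
    exact mem_ball_zero_iff.1 hv
  have e1 : L.φ (-((n : ℝ) * l - T)) (L.φ ((n : ℝ) * l - T) z) = z := by
    rw [← L.φ_add, neg_add_cancel, L.φ_zero]
  have h1 := H646.e_pm L hn (L.φ ((n : ℝ) * l - T) z) hav
  rw [e1] at h1
  refine ⟨?_, ?_, ?_⟩
  · exact H646.tau_mem L (H646.mem_dm_back L hn _ hav)
  · rw [h1, ← hvη, ← L.e_smul _ _ _ (ball_subset_closedBall hv), ← L.φ_smul,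
      H147.Ax.pow_smul h n, ← L.φ_add, ← L.e_rot _ _ _ (ball_subset_closedBall hv), L.rot_φ]
    congr 2
    ring
  · refine (hpm _ _ hn _ hav).trans_eq ?_
    rw [mul_assoc, ← Real.exp_add]
    congr 2
    ring

end Vale.Agent.P207.N3.H728
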