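import Vale.Agent.P207.N3.H728.Had

/-!
# P207, N3: asymptotic lines and Busemann functions (metric core)
-/

open Set Filter Topology Metric Real

noncomputable section

namespace Vale.Agent.P207.N3.H728

variable {Y : Type*} [MetricSpace Y]

/-- lines which are asymptotic in the future -/
def Asy (c c' : Ln Y) : Prop := ∃ C, ∀ t, 0 ≤ t → dist (c t) (c' t) ≤ C

namespace Asy

variable {c c' c'' : Ln Y}

theorem refl (c : Ln Y) : Asy c c := ⟨0, fun _ _ => by rw [dist_self]⟩

theorem symm (h : Asy c c') : Asy c' c := by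
  obtain ⟨C, hC⟩ := h
  exact ⟨C, fun t ht => by rw [dist_comm]; exact hC t ht⟩

theorem trans (h : Asy c c') (h' : Asy c' c'') : Asy c c'' := by
  obtain ⟨C, hC⟩ := h
  obtain ⟨C', hC'⟩ := h'
  exact ⟨C + C', fun t ht => (dist_triangle _ (c' t) _).trans (add_le_add (hC t ht) (hC' t ht))⟩

theorem shift (s : ℝ) (c : Ln Y) : Asy c (c.φ s) := ⟨|s|, fun _ _ => by
  rw [Ln.φ_apply, Ln.dist_eq]
  rw [sub_add_cancel_left, abs_neg]⟩

theorem φ (h : Asy c c') (s s' : ℝ) : Asy (c.φ s) (c'.φ s') :=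
  ((shift s c).symm.trans h).trans (shift s' c')

end Asy

theorem sinh_le_exp {t l : ℝ} (ht : 0 ≤ t) (htl : t ≤ l) :
    sinh t ≤ exp (-(l - t)) * sinh l := by
  rw [sinh_eq, sinh_eq]
  have h1 : exp (-(l - t)) * exp l = exp t := by rw [← exp_add]; congr 1; ring
  have h2 : exp (-(l - t)) * exp (-l) ≤ exp (-t) := by
    rw [← exp_add]
    exact exp_le_exp.2 (by linarith)
  have h3 : exp (-(l - t)) * ((exp l - exp (-l)) / 2) =
      (exp t - exp (-(l - t)) * exp (-l)) / 2 := by rw [← h1]; ring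
  rw [h3]
  linarith

theorem le_sinh {x : ℝ} (hx : 0 ≤ x) : x ≤ sinh x := self_le_sinh_iff.2 hx

namespace Had

variable (H : Had Y)

include H

/-- the constant of the comparison -/
def κ (R : ℝ) : ℝ := 2 / H.a * sinh (H.a * R / 2)

theorem κ_nonneg {R : ℝ} (hR : 0 ≤ R) : 0 ≤ H.κ R := by
  have := H.a_pos
  exact mul_nonneg (by positivity) (sinh_nonneg_iff.2 (by positivity))

theorem κ_mono {R R' : ℝ} (h : R ≤ R') : H.κ R ≤ H.κ R' := by
  have := H.a_pos
  refine mul_le_mul_of_nonneg_left (sinh_le_sinh.2 ?_) (by positivity)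
  have := mul_le_mul_of_nonneg_left h H.a_pos.le
  linarith

theorem le_κ {d x : ℝ} (hd : 0 ≤ d) (h : sinh (H.a * d / 2) ≤ x) : d ≤ 2 / H.a * x := by
  have ha := H.a_pos
  have h1 : H.a * d / 2 ≤ x := (le_sinh (by positivity)).trans h
  rw [div_mul_eq_mul_div, le_div_iff₀ ha]
  linarith

/-- two lines from one point -/
theorem hinge_exp (c c' : Ln Y) (h0 : c 0 = c' 0) {t l : ℝ} (ht : 0 ≤ t) (htl : t ≤ l) :
    sinh (H.a * dist (c t) (c' t) / 2) ≤
      exp (-(H.a * (l - t))) * sinh (H.a * dist (c l) (c' l) / 2) := by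
  have ha := H.a_pos
  rcases (ht.trans htl).eq_or_lt with h1 | h1
  · have h2 : t = 0 := le_antisymm (by rw [h1]; exact htl) ht
    subst h2
    rw [← h1, h0, dist_self]
    simp
  have h2 := H.hinge' c c' h0 ht htl
  have h3 : 0 < sinh (H.a * l) := sinh_pos_iff.2 (mul_pos ha h1)
  have h4 : 0 ≤ sinh (H.a * dist (c l) (c' l) / 2) := sinh_nonneg_iff.2 (by positivity)
  have h5 := sinh_le_exp (mul_nonneg ha.le ht) (mul_le_mul_of_nonneg_left htl ha.le)
  have e : H.a * l - H.a * t = H.a * (l - t) := by ring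
  rw [e] at h5
  have h6 := mul_le_mul_of_nonneg_right h5 h4
  by_contra hcon
  push Not at hcon
  have h7 := mul_lt_mul_of_pos_left hcon h3
  nlinarith

theorem hinge_mono (c c' : Ln Y) (h0 : c 0 = c' 0) {t l : ℝ} (ht : 0 ≤ t) (htl : t ≤ l) :
    dist (c t) (c' t) ≤ dist (c l) (c' l) := by
  have ha := H.a_pos
  have h1 := H.hinge_exp c c' h0 ht htl
  have h2 : exp (-(H.a * (l - t))) ≤ 1 := by
    rw [exp_le_one_iff]
    nlinarith
  have h4 : 0 ≤ sinh (H.a * dist (c l) (c' l) / 2) := sinh_nonneg_iff.2 (by positivity)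
  have h3 : sinh (H.a * dist (c t) (c' t) / 2) ≤ sinh (H.a * dist (c l) (c' l) / 2) := by
    nlinarith
  rw [sinh_le_sinh] at h3
  by_contra hcon
  push Not at hcon
  nlinarith

theorem hinge_κ (c c' : Ln Y) (h0 : c 0 = c' 0) {t l R : ℝ} (ht : 0 ≤ t) (htl : t ≤ l)
    (hR : dist (c l) (c' l) ≤ R) : dist (c t) (c' t) ≤ H.κ R * exp (-(H.a * (l - t))) := by
  have ha := H.a_pos
  have h1 := H.hinge_exp c c' h0 ht htl
  have h2 := H.le_κ dist_nonneg h1
  refine h2.trans ?_
  have h3 : sinh (H.a * dist (c l) (c' l) / 2) ≤ sinh (H.a * R / 2) := by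
    rw [sinh_le_sinh]
    nlinarith
  unfold κ
  have h4 := exp_pos (-(H.a * (l - t)))
  calc 2 / H.a * (exp (-(H.a * (l - t))) * sinh (H.a * dist (c l) (c' l) / 2))
      ≤ 2 / H.a * (exp (-(H.a * (l - t))) * sinh (H.a * R / 2)) := by gcongr
    _ = _ := by ring

/-- asymptotic lines from one point are equal -/
theorem Asy.eq {c c' : Ln Y} (h : Asy c c') (h0 : c 0 = c' 0) : c = c' := by
  obtain ⟨C, hC⟩ := h
  have ha := H.a_pos
  refine H.line_unique one_pos h0 ?_
  have h1 : ∀ l : ℝ, 1 ≤ l → dist (c 1) (c' 1) ≤ H.κ C * exp (-(H.a * (l - 1))) := fun l hl =>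
    H.hinge_κ c c' h0 zero_le_one hl (hC l (zero_le_one.trans hl))
  have h2 : Tendsto (fun l : ℝ => H.κ C * exp (-(H.a * (l - 1)))) atTop (𝓝 (H.κ C * 0)) := by
    refine Tendsto.const_mul _ (tendsto_exp_neg_atTop_nhds_zero.comp ?_)
    exact Tendsto.const_mul_atTop ha (tendsto_atTop_add_const_right _ _ tendsto_id)
  rw [mul_zero] at h2
  have h3 : dist (c 1) (c' 1) ≤ 0 := ge_of_tendsto h2 (by
    filter_upwards [eventually_ge_atTop (1 : ℝ)] with l hl using h1 l hl)
  exact dist_le_zero.1 h3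

/-- the backward parametrisation from the point `c T` -/
theorem back (c r : Ln Y) {T l : ℝ} (h : r l = c T) {u L : ℝ} (hu : 0 ≤ u) (huL : u ≤ L) :
    sinh (H.a * dist (c (T - u)) (r (l - u)) / 2) ≤
      exp (-(H.a * (L - u))) * sinh (H.a * dist (c (T - L)) (r (l - L)) / 2) ∧
    dist (c (T - u)) (r (l - u)) ≤ dist (c (T - L)) (r (l - L)) := by
  have e1 : ∀ v, ((c.φ T).flip) v = c (T - v) := fun v => by
    rw [Ln.flip_apply, Ln.φ_apply]; congr 1; ring
  have e2 : ∀ v, ((r.φ l).flip) v = r (l - v) := fun v => by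
    rw [Ln.flip_apply, Ln.φ_apply]; congr 1; ring
  have h0 : ((c.φ T).flip) 0 = ((r.φ l).flip) 0 := by
    rw [e1, e2, sub_zero, sub_zero, h]
  have h1 := H.hinge_exp _ _ h0 hu huL
  have h2 := H.hinge_mono _ _ h0 hu huL
  simp only [e1, e2] at h1 h2
  exact ⟨h1, h2⟩

omit H in
/-- the length of the segment from `x` to `c T` -/
theorem abs_len (c : Ln Y) (x : Y) {T : ℝ} (hT : 0 ≤ T) :
    |dist x (c T) - T| ≤ dist x (c 0) := by
  have h1 := abs_dist_sub_le x (c 0) (c T)
  rwa [Ln.dist_eq, zero_sub, abs_neg, abs_of_nonneg hT] at h1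

omit H in
/-- the start of the comparison -/
theorem start (c r : Ln Y) {x : Y} (hr : r 0 = x) {T l : ℝ} (hT : 0 ≤ T) (hl : l = dist x (c T))
    {D : ℝ} (hD : dist x (c 0) ≤ D) :
    T - D ≤ min T l ∧ dist (c (T - min T l)) (r (l - min T l)) ≤ 2 * D := by
  have h1 := abs_len c x hT
  rw [← hl] at h1
  have h1' := abs_le.1 h1
  have hD0 : 0 ≤ D := dist_nonneg.trans hD
  have e1 : |T - min T l| + |l - min T l| ≤ D := by
    rcases le_total T l with h | h
    · rw [min_eq_left h, sub_self, abs_zero, zero_add, abs_of_nonneg (by linarith)]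
      linarith [h1'.2]
    · rw [min_eq_right h, sub_self, abs_zero, add_zero, abs_of_nonneg (by linarith)]
      linarith [h1'.1]
  constructor
  · rw [le_min_iff]
    constructor
    · linarith
    · linarith [h1'.1]
  · calc dist (c (T - min T l)) (r (l - min T l))
        ≤ dist (c (T - min T l)) (c 0) + dist (c 0) (r (l - min T l)) := dist_triangle _ _ _
      _ ≤ dist (c (T - min T l)) (c 0) + (dist (c 0) x + dist x (r (l - min T l))) := by
          gcongr
          exact dist_triangle _ _ _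
      _ ≤ |T - min T l| + (D + |l - min T l|) := by
          have g1 : dist (c (T - min T l)) (c 0) = |T - min T l| := by rw [Ln.dist_eq, sub_zero]
          have g2 : dist x (r (l - min T l)) = |l - min T l| := by
            rw [← hr, Ln.dist_eq, zero_sub, abs_neg]
          rw [g1, g2, dist_comm (c 0) x]
          gcongr
      _ ≤ 2 * D := by linarith

/-- **fellow travelling** -/
theorem travel (c r : Ln Y) {x : Y} (hr : r 0 = x) {T : ℝ} (hrT : r (dist x (c T)) = c T)
    {t : ℝ} (ht : 0 ≤ t) (htT : t ≤ T) : dist (c t) (r t) ≤ 5 * dist x (c 0) := by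
  set l := dist x (c T) with hl
  set D := dist x (c 0) with hD
  have hT : 0 ≤ T := ht.trans htT
  obtain ⟨h1, h2⟩ := start c r hr hT hl hD.ge
  have h3 := abs_len c x hT
  rw [← hl, ← hD] at h3
  have hD0 : 0 ≤ D := dist_nonneg
  set L := min T l with hL
  have hLT : L ≤ T := min_le_left _ _
  -- compare at `T - t`
  have key : dist (c t) (r (l - (T - t))) ≤ 4 * D := by
    rcases le_total (T - t) L with h | h
    · have h4 := (H.back c r hrT (sub_nonneg.2 htT) h).2
      rw [sub_sub_cancel] at h4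
      linarith
    · have h4 : dist (c t) (c (T - L)) ≤ D := by
        rw [Ln.dist_eq, abs_le]
        constructor <;> linarith
      have h5 : dist (r (l - L)) (r (l - (T - t))) ≤ D := by
        rw [Ln.dist_eq, abs_le]
        constructor <;> linarith
      calc dist (c t) (r (l - (T - t))) ≤ dist (c t) (c (T - L)) + dist (c (T - L)) (r (l - L)) +
            dist (r (l - L)) (r (l - (T - t))) := dist_triangle4 _ _ _ _
        _ ≤ 4 * D := by linarith
  have h6 : dist (r (l - (T - t))) (r t) ≤ D := by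
    rw [Ln.dist_eq]
    have e : l - (T - t) - t = l - T := by ring
    rw [e]
    exact h3
  calc dist (c t) (r t) ≤ dist (c t) (r (l - (T - t))) + dist (r (l - (T - t))) (r t) :=
        dist_triangle _ _ _
    _ ≤ 5 * D := by linarith

section Proper

variable [ProperSpace Y]

/-- existence of the asymptotic line from a point -/
theorem exists_ray (x : Y) (c : Ln Y) : ∃ r : Ln Y, r 0 = x ∧
    ∀ t, 0 ≤ t → dist (c t) (r t) ≤ 5 * dist x (c 0) := by
  have hK : IsCompact {r : Ln Y | r 0 ∈ ({x} : Set Y)} := Ln.isCompact_eval isCompact_singleton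
  set U : Ultrafilter ℝ := Ultrafilter.of atTop with hU
  have hUle : (U : Filter ℝ) ≤ atTop := Ultrafilter.of_le _
  set f : ℝ → Ln Y := fun T => H.through x (c T) with hf
  have h1 : (U.map f : Filter (Ln Y)) ≤ 𝓟 {r : Ln Y | r 0 ∈ ({x} : Set Y)} := by
    rw [le_principal_iff]
    have h0 : ∀ᶠ T in (U : Filter ℝ), f T ∈ {r : Ln Y | r 0 ∈ ({x} : Set Y)} :=
      Filter.Eventually.of_forall fun T => H.through_zero x (c T)
    exact h0
  obtain ⟨r, hr, hr'⟩ := hK.ultrafilter_le_nhds (U.map f) h1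
  have hlim : Tendsto f U (𝓝 r) := hr'
  refine ⟨r, hr, fun t ht => ?_⟩
  have h2 : Tendsto (fun T => dist (c t) (f T t)) U (𝓝 (dist (c t) (r t))) :=
    tendsto_const_nhds.dist (((Ln.continuous_eval t).tendsto r).comp hlim)
  refine le_of_tendsto h2 ?_
  filter_upwards [hUle (eventually_ge_atTop t)] with T hT
  exact H.travel c (f T) (H.through_zero _ _) (H.through_dist _ _) ht hT

/-- the line from `x` asymptotic to `c` -/
def ray (x : Y) (c : Ln Y) : Ln Y := (H.exists_ray x c).choose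

@[simp] theorem ray_zero (x : Y) (c : Ln Y) : H.ray x c 0 = x := (H.exists_ray x c).choose_spec.1

theorem ray_le (x : Y) (c : Ln Y) {t : ℝ} (ht : 0 ≤ t) :
    dist (c t) (H.ray x c t) ≤ 5 * dist x (c 0) := (H.exists_ray x c).choose_spec.2 t ht

theorem ray_asy (x : Y) (c : Ln Y) : Asy c (H.ray x c) := ⟨_, fun _ ht => H.ray_le x c ht⟩

theorem eq_ray {x : Y} {c r : Ln Y} (h0 : r 0 = x) (h : Asy c r) : r = H.ray x c :=
  Had.Asy.eq H (h.symm.trans (H.ray_asy x c)) (by rw [h0, ray_zero])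

theorem ray_congr (x : Y) {c c' : Ln Y} (h : Asy c c') : H.ray x c = H.ray x c' :=
  H.eq_ray (H.ray_zero x c) (h.symm.trans (H.ray_asy x c))

theorem ray_self (c : Ln Y) : H.ray (c 0) c = c := (H.eq_ray rfl (Asy.refl c)).symm

theorem ray_at (c : Ln Y) (t : ℝ) : H.ray (c t) c = c.φ t :=
  (H.eq_ray (by rw [Ln.φ_apply, zero_add]) (Asy.shift t c)).symm

theorem Asy_le {c c' : Ln Y} (h : Asy c c') {t : ℝ} (ht : 0 ≤ t) :
    dist (c t) (c' t) ≤ 5 * dist (c 0) (c' 0) := by
  have h1 := H.ray_le (c' 0) c ht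
  rwa [← H.eq_ray rfl h, dist_comm (c' 0)] at h1

/-- the asymptotic line depends continuously on the point and the line -/
theorem continuous_ray : Continuous fun p : Y × Ln Y => H.ray p.1 p.2 := by
  rw [continuous_iff_continuousAt]
  rintro ⟨x, c⟩
  refine Ln.continuousAt_of_unique (x := x) (R := 1) ?_ ?_
  · have h1 : ∀ᶠ p : Y × Ln Y in 𝓝 (x, c), p.1 ∈ closedBall x 1 :=
      continuous_fst.continuousAt.eventually (closedBall_mem_nhds x one_pos)
    filter_upwards [h1] with p hp
    rw [ray_zero]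
    exact hp
  · intro U r hU hr
    have h1 : Tendsto (fun p : Y × Ln Y => p.1) U (𝓝 x) :=
      (continuous_fst.tendsto (x, c)).mono_left hU
    have h2 : ∀ t, Tendsto (fun p : Y × Ln Y => p.2 t) U (𝓝 (c t)) := fun t =>
      (((Ln.continuous_eval t).comp continuous_snd).tendsto (x, c)).mono_left hU
    have h3 : ∀ t, Tendsto (fun p : Y × Ln Y => H.ray p.1 p.2 t) U (𝓝 (r t)) := fun t =>
      ((Ln.continuous_eval t).tendsto r).comp hr
    refine H.eq_ray ?_ ⟨5 * dist x (c 0), fun t ht => ?_⟩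
    · have h4 := h3 0
      simp only [ray_zero] at h4
      exact tendsto_nhds_unique h4 h1
    · refine le_of_tendsto_of_tendsto ((h2 t).dist (h3 t)) ((h1.dist (h2 0)).const_mul 5) ?_
      exact Filter.Eventually.of_forall fun p => H.ray_le p.1 p.2 ht

end Proper

end Had

end Vale.Agent.P207.N3.H728
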