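import Vale.Agent.P207.N3.H728.Weyl

/-!
# P207, N3, P12: the trace free tensor vanishes: frames at one point
-/

open Set Filter Topology Metric
open scoped ContDiff RealInnerProductSpace

noncomputable section

namespace Vale.Agent.P207.N3.H728

open H576
open H147 (ep_cont ep_smul ep_φ ep_rot)

/-! ### orthonormal triples and isometries -/

/-- the linear map with the given images of the basis vectors -/
def linOf (p : E3 × E3 × E3) : E3 →ₗ[ℝ] E3 where
  toFun v := v 0 • p.1 + v 1 • p.2.1 + v 2 • p.2.2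
  map_add' v w := by simp only [PiLp.add_apply]; module
  map_smul' c v := by simp only [PiLp.smul_apply, smul_eq_mul, RingHom.id_apply]; module

theorem linOf_apply (p : E3 × E3 × E3) (v : E3) :
    linOf p v = v 0 • p.1 + v 1 • p.2.1 + v 2 • p.2.2 := rfl

theorem linOf_norm {p : E3 × E3 × E3} (h : H442.ON p) (v : E3) : ‖linOf p v‖ = ‖v‖ := by
  obtain ⟨h1, h2, h3, h4, h5, h6⟩ := h
  have h4' : ⟪p.2.1, p.1⟫ = 0 := by rw [real_inner_comm]; exact h4
  have h5' : ⟪p.2.2, p.1⟫ = 0 := by rw [real_inner_comm]; exact h5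
  have h6' : ⟪p.2.2, p.2.1⟫ = 0 := by rw [real_inner_comm]; exact h6
  have e1 : ‖linOf p v‖ ^ 2 = ‖v‖ ^ 2 := by
    rw [← real_inner_self_eq_norm_sq, linOf_apply, EuclideanSpace.norm_sq_eq,
      Fin.sum_univ_three]
    simp only [inner_add_left, inner_add_right, real_inner_smul_left, real_inner_smul_right,
      h1, h2, h3, h4, h5, h6, h4', h5', h6', Real.norm_eq_abs, sq_abs]
    ring
  exact (pow_left_inj₀ (norm_nonneg _) (norm_nonneg _) two_ne_zero).1 e1

/-- the isometry with the given images of the basis vectors -/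
def isoOf (p : E3 × E3 × E3) (h : H442.ON p) : O3 :=
  LinearIsometry.toLinearIsometryEquiv ⟨linOf p, linOf_norm h⟩ rfl

theorem isoOf_apply (p : E3 × E3 × E3) (h : H442.ON p) (v : E3) :
    isoOf p h v = v 0 • p.1 + v 1 • p.2.1 + v 2 • p.2.2 := rfl

/-- the rotation of the plane -/
def rotL (θ : ℝ) : E2 →ₗ[ℝ] E2 where
  toFun v := !₂[Real.cos θ * v 0 - Real.sin θ * v 1, Real.sin θ * v 0 + Real.cos θ * v 1]
  map_add' v w := by
    ext i
    fin_cases i <;> simp <;> ring
  map_smul' c v := by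
    ext i
    fin_cases i <;> simp <;> ring

theorem rotL_norm (θ : ℝ) (v : E2) : ‖rotL θ v‖ = ‖v‖ := by
  have h := Real.sin_sq_add_cos_sq θ
  have e1 : ‖rotL θ v‖ ^ 2 = ‖v‖ ^ 2 := by
    rw [EuclideanSpace.norm_sq_eq, EuclideanSpace.norm_sq_eq, Fin.sum_univ_two, Fin.sum_univ_two]
    simp only [Real.norm_eq_abs, sq_abs]
    change (Real.cos θ * v 0 - Real.sin θ * v 1) ^ 2 + (Real.sin θ * v 0 + Real.cos θ * v 1) ^ 2 = _
    linear_combination (v 0 ^ 2 + v 1 ^ 2) * h
  exact (pow_left_inj₀ (norm_nonneg _) (norm_nonneg _) two_ne_zero).1 e1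

/-- the rotation of the plane as an isometry -/
def rotO (θ : ℝ) : O2 := LinearIsometry.toLinearIsometryEquiv ⟨rotL θ, rotL_norm θ⟩ rfl

theorem rotO_apply (θ : ℝ) (v : E2) :
    rotO θ v = !₂[Real.cos θ * v 0 - Real.sin θ * v 1, Real.sin θ * v 0 + Real.cos θ * v 1] := rfl

theorem rotO_zero (θ : ℝ) : rotO θ (bv 0) = Real.cos θ • bv 0 + Real.sin θ • bv 1 := by
  rw [rotO_apply]
  ext i
  fin_cases i <;> simp [bv_apply]

theorem rotO_one (θ : ℝ) : rotO θ (bv 1) = - Real.sin θ • bv 0 + Real.cos θ • bv 1 := by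
  rw [rotO_apply]
  ext i
  fin_cases i <;> simp [bv_apply]

variable {Γ X B : Type} [Group Γ] [MetricSpace X] [ProperSpace X] [MulAction Γ X]
  [IsIsometricSMul Γ X] [TopologicalSpace B] [CompactSpace B] [T2Space B] [MulAction Γ B]
  [ContinuousConstSMul Γ B] {L : Leaf Γ X B}

theorem isoOf_rot (Fb : Fiber L) {p : E3 × E3 × E3} (h : H442.ON p) (θ : ℝ)
    (h' : H442.ON (H442.rot θ p)) :
    isoOf (H442.rot θ p) h' = isoOf p h * Fb.ext (rotO θ) := by
  ext1 v
  change _ = isoOf p h (Fb.ext (rotO θ) v)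
  rw [isoOf_apply, isoOf_apply]
  have e0 := Fb.ext_zero (rotO θ) v
  have e1 := Fb.ext_succ (rotO θ) v 0
  have e2 := Fb.ext_succ (rotO θ) v 1
  rw [rotO_apply] at e1 e2
  have e1' : Fb.ext (rotO θ) v 1 = Real.cos θ * v 1 - Real.sin θ * v 2 := e1
  have e2' : Fb.ext (rotO θ) v 2 = Real.sin θ * v 1 + Real.cos θ * v 2 := e2
  rw [e0, e1', e2']
  simp only [H442.rot]
  module

/-! ### the chart of a rotated frame -/

theorem fderiv_tau_rot (a : O2) (x : X) :
    fderiv ℝ (L.τ (L.rot a x) x) 0 = (a.toContinuousLinearEquiv : E2 →L[ℝ] E2) := by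
  have h1 : L.τ (L.rot a x) x =ᶠ[𝓝 0] fun u => a u := by
    filter_upwards [ball_mem_nhds (0 : E2) (by norm_num : (0 : ℝ) < 3)] with u hu
    have hu' : a u ∈ closedBall (0 : E2) 3 := by
      rw [mem_closedBall_zero_iff, LinearIsometryEquiv.norm_map]
      exact (mem_ball_zero_iff.1 hu).le
    refine H646.tau_of L hu' ?_
    rw [L.e_rot _ _ _ (ball_subset_closedBall hu)]
  rw [h1.fderiv_eq]
  exact a.toContinuousLinearEquiv.fderiv

namespace WF

variable (W : WF L)

theorem J_rot (a : O2) (x : X) : W.J (L.rot a x) x = a.toContinuousLinearEquiv := by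
  apply ContinuousLinearEquiv.coe_injective
  rw [W.J_eq _ _ (ep_rot L a x), fderiv_tau_rot]

theorem cF_rot' (θ : ℝ) (x : X) :
    cF (W.T (L.rot (rotO θ) x)) = Complex.exp (-4 * θ * Complex.I) * cF (W.T x) := by
  have h := W.T_act (ep_rot L (rotO θ) x).symm (L.em_rot (rotO θ) x).symm
  rw [W.J_rot] at h
  exact cF_rot h (W.T_isT x) (rotO_zero θ) (rotO_one θ)

theorem cF_cont : Continuous fun x => cF (W.T x) := by
  unfold cF
  exact continuous_finsetSum _ fun k _ => continuous_finsetSum _ fun l _ =>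
    continuous_finsetSum _ fun i _ => continuous_finsetSum _ fun j _ =>
      continuous_const.mul (Complex.continuous_ofReal.comp (W.T_cont _ _ _ _))

theorem zero_isT : IsT (fun _ _ _ _ => 0) :=
  ⟨fun _ _ _ => ⟨fun _ _ => by simp, fun _ _ => by simp⟩,
    fun _ _ _ => ⟨fun _ _ => by simp, fun _ _ => by simp⟩,
    fun _ _ _ => ⟨fun _ _ => by simp, fun _ _ => by simp⟩,
    fun _ _ _ => ⟨fun _ _ => by simp, fun _ _ => by simp⟩⟩

/-- **P12E**: if some closed orbit has two eigenvalues of different modulus, then the trace free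
tensor vanishes. -/
theorem zero (Fb : Fiber L) (o : Orb L) (h : ¬ R1 (fderiv ℝ o.ret 0)) {x : X} {η : B}
    (hη : η ≠ L.ep x) (y y' : D2) (w w' : E2) : W.V x η y y' w w' = 0 := by
  obtain ⟨c, S, hc0, hS, hmod⟩ := W.exists_dense o h
  rcases hc0.eq_or_lt with hc | hc
  · -- all tensors vanish
    have h1 : ∀ z k l i j, co (W.T z) k l i j = 0 := by
      intro z k l i j
      have hcl : IsClosed {z | co (W.T z) k l i j = 0} :=
        isClosed_eq (W.T_cont k l i j) continuous_const
      have h2 : closure S ⊆ {z | co (W.T z) k l i j = 0} := by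
        refine closure_minimal (fun z hz => ?_) hcl
        obtain ⟨c', hc', hm⟩ := hmod z hz
        rw [← hc, abs_eq_zero] at hc'
        rw [hc'] at hm
        exact hm.eq_zero _ _ _ _
      rw [hS.closure_eq] at h2
      exact h2 (mem_univ z)
    have h2 : ∀ z, W.T z = fun _ _ _ _ => 0 := fun z =>
      (W.T_isT z).ext zero_isT fun k l i j => h1 z k l i j
    obtain ⟨z, hz1, hz2, -⟩ := L.exists_frame η (L.ep x) hη 0
    have h3 := W.act z x η hz2 (by rw [hz2]; exact hη)
    have h4 : W.V z η = fun _ _ _ _ => 0 := by rw [← h2 z, T, hz1]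
    rw [h3, h4]
  · exfalso
    have h1 : ∀ z, 6 * c ≤ ‖cF (W.T z)‖ := by
      intro z
      have hcl : IsClosed {z | 6 * c ≤ ‖cF (W.T z)‖} :=
        isClosed_le continuous_const W.cF_cont.norm
      have h2 : closure S ⊆ {z | 6 * c ≤ ‖cF (W.T z)‖} := by
        refine closure_minimal (fun z hz => ?_) hcl
        obtain ⟨c', hc', hm⟩ := hmod z hz
        rw [← hc']
        exact hm.cF
      rw [hS.closure_eq] at h2
      exact h2 (mem_univ z)
    classical
    set F : E3 × E3 × E3 → ℂ := fun p =>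
      if hp : H442.ON p then cF (W.T (Fb.fib (isoOf p hp))) else 0 with hF
    have hFp : ∀ p (hp : H442.ON p), F p = cF (W.T (Fb.fib (isoOf p hp))) := fun p hp => by
      rw [hF]
      exact dif_pos hp
    refine H442.no_section (EuclideanSpace.basisFun (Fin 3) ℝ) (k := -4) (by norm_num)
      (F := F) ?_ ?_ ?_
    · rw [continuousOn_iff_continuous_domRestrict]
      have h2 : (fun q : {p : E3 × E3 × E3 // H442.ON p} => F q.1) =
          fun q : {p : E3 × E3 × E3 // H442.ON p} => cF (W.T (Fb.fib (isoOf q.1 q.2))) := by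
        funext q
        exact hFp q.1 q.2
      change Continuous (fun q : {p : E3 × E3 × E3 // H442.ON p} => F q.1)
      rw [h2]
      refine W.cF_cont.comp (Fb.fib_cont {p : E3 × E3 × E3 // H442.ON p}
        (fun q => isoOf q.1 q.2) ?_)
      have h3 : (fun p : {p : E3 × E3 × E3 // H442.ON p} × E3 => isoOf p.1.1 p.1.2 p.2) =
          fun p => p.2 0 • p.1.1.1 + p.2 1 • p.1.1.2.1 + p.2 2 • p.1.1.2.2 := rfl
      rw [h3]
      have hi : ∀ i : Fin 3, Continuous fun p : {p : E3 × E3 × E3 // H442.ON p} × E3 => p.2 i :=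
        fun i => (PiLp.continuous_apply 2 (fun _ : Fin 3 => ℝ) i).comp continuous_snd
      have hv : Continuous fun p : {p : E3 × E3 × E3 // H442.ON p} × E3 => p.1.1 :=
        continuous_subtype_val.comp continuous_fst
      exact (((hi 0).smul hv.fst).add ((hi 1).smul hv.snd.fst)).add ((hi 2).smul hv.snd.snd)
    · intro p hp h2
      rw [hFp p hp] at h2
      have h3 := h1 (Fb.fib (isoOf p hp))
      rw [h2, norm_zero] at h3
      linarith
    · intro p hp θ
      have hp' : H442.ON (H442.rot θ p) := by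
        obtain ⟨a1, a2, a3, a4, a5, a6⟩ := hp
        have a6' : ⟪p.2.2, p.2.1⟫ = 0 := by rw [real_inner_comm]; exact a6
        have hcs := Real.sin_sq_add_cos_sq θ
        refine ⟨a1, ?_, ?_, ?_, ?_, ?_⟩ <;>
          simp only [H442.rot, inner_add_left, inner_add_right, real_inner_smul_left,
            real_inner_smul_right, a2, a3, a4, a5, a6, a6'] <;>
          first | linear_combination hcs | linear_combination (0 : ℝ) * hcs
      rw [hFp _ hp', hFp p hp, isoOf_rot Fb hp θ hp', Fb.fib_rot, W.cF_rot']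
      push_cast
      rfl

end WF

end Vale.Agent.P207.N3.H728
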