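import Vale.Agent.P207.N3.H728.DInf
import Vale.Agent.P207.N3.H728.Weyl2
import Vale.Agent.P207.N3.H576.Kill

/-!
# P207, line N3, P12: the smooth alternative implies that no closed orbit is split
-/

noncomputable section

open Set Filter Topology Metric
open scoped ContDiff

set_option maxSynthPendingDepth 3
set_option linter.unusedSectionVars false

namespace Vale.Agent.P207.N3.H728

open H576 H828 Ten

variable {Γ X B : Type} [Group Γ] [MetricSpace X] [ProperSpace X] [MulAction Γ X]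
  [IsIsometricSMul Γ X] [TopologicalSpace B] [CompactSpace B] [T2Space B] [MulAction Γ B]
  [ContinuousConstSMul Γ B] {L : Leaf Γ X B} [MeasurableSpace B] [BorelSpace B] {A : Area L}

/-- the family of the trace free tensors -/
def wf (H : SmB L A.D) (htr : ∀ x η, η ≠ L.ep x → TrFree (VV L A.D (-A.h) x η)) : WF L where
  V := VV L A.D (-A.h)
  J := Jm L
  isT x η _ := SmB.VV_isT (-A.h) x η
  symm4 _ _ h := H.VV_symm4 (-A.h) h
  trFree := htr
  smul g _ _ h := H.VV_smul (-A.h) g h
  J_eq _ _ h := H.Jm_eq h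
  act _ _ _ h h' := H.VV_act (-A.h) h h'
  cont := H.VV_cont (-A.h)
  lip := H.VV_lip (-A.h)

/-- **all tensors vanish** if one closed orbit is split -/
theorem VV_zero (H : SmB L A.D) (Fb : Fiber L)
    (htr : ∀ x η, η ≠ L.ep x → TrFree (VV L A.D (-A.h) x η)) (o : Orb L)
    (h : ¬ R1 (fderiv ℝ o.ret 0)) {x : X} {η : B} (hη : η ≠ L.ep x) (y y' : D2) (w w' : E2) :
    VV L A.D (-A.h) x η y y' w w' = 0 :=
  (wf H htr).zero Fb o h hη y y' w w'

/-- the tensor in all pairs of charts is pure trace -/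
theorem pt_of_zero (H : SmB L A.D) {lam : ℝ} (hV : ∀ x η, η ≠ L.ep x → ∀ y y' w w',
    VV L A.D lam x η y y' w w' = 0) (y : X) : PT L A.D y lam where
  sm x := by
    intro p hp
    exact ((H.sm (mem_od hp.1 hp.2.1 hp.2.2)).at).contDiffWithinAt
  nd x p hp := H.Nd (mem_od hp.1 hp.2.1 hp.2.2)
  pt x p hp a b c d := by
    obtain ⟨hp1, hp2, hp3⟩ := hp
    set y' := frp L (L.e y p.1) with hy'
    have hdm : p.1 ∈ L.dm y y' := mem_dm hp1 mem_ball0 (e_frp _)
    have h0 : L.τ y y' p.1 = 0 := tau_eq mem_cball0 (e_frp _)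
    obtain ⟨J, hJ⟩ := H.inv_tau hdm
    have h1 := H.Rd_tau (x := y) (x' := y') (y := x) (y' := x) (a := p.1) (b := p.2) hdm
      (self_dm hp2) hp3 hJ
    rw [h0, H828.tau_self hp2] at h1
    have h2 := Wd_act lam h1
    have hne : L.e x p.2 ≠ L.ep y' := by
      rw [ep_frp]
      exact hp3.symm
    have h3 := H.VV_eq lam hp2 hne
    have h4 : Wd lam (ff L A.D (y, x)) (p.1, p.2) a b c d = 0 := by
      rw [h2, ← h3]
      exact hV _ _ hne _ _ _ _
    simp only [Wd] at h4
    have h5 : Rd (fD L A.D y x) p a b c d = Rd (ff L A.D (y, x)) (p.1, p.2) a b c d := rfl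
    rw [h5]
    linarith

/-- **P12** over the smooth boundary: no closed orbit is split -/
theorem not_split_of (H : SmB L A.D) (Fb : Fiber L)
    (htr : ∀ x η, η ≠ L.ep x → TrFree (VV L A.D (-A.h) x η)) (o : Orb L) (n : Nor L o) :
    ¬ n.N.Split := by
  intro hs
  have h : ¬ R1 (fderiv ℝ o.ret 0) := fun h => (n.R1_ret_iff.1 h) hs
  exact kill (pt_of_zero H (fun x η hη y y' w w' => VV_zero H Fb htr o h hη y y' w w') o.x)
    (neg_neg_of_pos A.h_pos) (tendsto_D H o)

end Vale.Agent.P207.N3.H728
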