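import Vale.Agent.P207.N3.H460.DenseLeaf

/-!
# P207, N3: a `Leaf` is a `LeafA` (to use the lemmas of `H460.DenseLeaf` over a `Leaf`)
-/

noncomputable section

namespace Vale.Agent.P207.N3.H728


variable {Γ X B : Type} [Group Γ] [MetricSpace X] [ProperSpace X] [MulAction Γ X]
  [IsIsometricSMul Γ X] [TopologicalSpace B] [CompactSpace B] [T2Space B] [MulAction Γ B]
  [ContinuousConstSMul Γ B]

/-- the underlying `LeafA` -/
def toA (L : Leaf Γ X B) : LeafA Γ X B where
  nonempty := L.nonempty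
  φ := L.φ
  φ_zero := L.φ_zero
  φ_add := L.φ_add
  φ_cont := L.φ_cont
  φ_smul := L.φ_smul
  rot := L.rot
  rot_one := L.rot_one
  rot_mul := L.rot_mul
  rot_cont := L.rot_cont
  rot_smul := L.rot_smul
  rot_φ := L.rot_φ
  flip := L.flip
  flip_flip := L.flip_flip
  flip_cont := L.flip_cont
  flip_smul := L.flip_smul
  flip_φ := L.flip_φ
  flip_rot := L.flip_rot
  em := L.em
  em_cont := L.em_cont
  em_smul := L.em_smul
  em_φ := L.em_φ
  em_rot := L.em_rot
  ep := L.ep
  ep_flip := L.ep_flip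
  em_ne_ep := L.em_ne_ep
  lv := L.lv
  lv_cont := L.lv_cont
  lv_φ := L.lv_φ
  lv_rot := L.lv_rot
  lv_smul := L.lv_smul
  exists_frame := L.exists_frame
  frame_unique := L.frame_unique
  hopf_proper := L.hopf_proper
  cocompact := L.cocompact
  proper := L.proper
  e := L.e
  e_cont := L.e_cont
  e_zero := L.e_zero
  e_inj := L.e_inj
  e_ne := L.e_ne
  e_open := L.e_open
  e_smul := L.e_smul
  e_rot := L.e_rot
  near := L.near
  tau_smooth := L.tau_smooth
  tau_cont := L.tau_cont
  t1 := L.t1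
  t1_pos := L.t1_pos
  χ := L.χ
  χ_pos := L.χ_pos
  engulf := L.engulf
  contract := L.contract
  holder := L.holder
  hol := L.hol
  hol_em := L.hol_em
  hol_ep := L.hol_ep
  hol_lp := L.hol_lp
  hol_self := L.hol_self
  hol_hol := L.hol_hol
  hol_φ := L.hol_φ
  hol_rot := L.hol_rot
  hol_smul := L.hol_smul
  hol_cont := L.hol_cont
  hol_asym := L.hol_asym

end Vale.Agent.P207.N3.H728
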